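import Mathlib.MeasureTheory.Measure.Hausdorff
import Mathlib.MeasureTheory.Measure.Prod
import Mathlib.MeasureTheory.Measure.Lebesgue.Basic
import Mathlib.MeasureTheory.Integral.Average
import Mathlib.Tactic

/-!
# Typical points for radial contractions

`Frac p x z l`: the point `z` divides a minimal geodesic from `p` to `x` in the ratio `l`.
In a proper metric space in which the radial maps expand distances by at least the factor
`l * (1 - ε)`, most points `z` of a ball (for the `n`-dimensional Hausdorff measure) lie on long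
geodesics from finitely many given points and avoid given closed sets that every geodesic
seldom meets.
-/

open Set Metric MeasureTheory
open scoped ENNReal NNReal Topology

noncomputable section

namespace Vale.Agent.P210.H204

variable {X : Type*} [MetricSpace X]

/-- `z` lies between `p` and `x`, at the fraction `l` of the way from `p`. -/
def Frac (p x z : X) (l : ℝ) : Prop :=
  dist p z = l * dist p x ∧ dist z x = (1 - l) * dist p x

/-- Radial maps expand at least by the factor `l * (1 - ε)` inside the ball. -/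
def Contr (X : Type*) [MetricSpace X] (q : X) (D ε : ℝ) : Prop :=
  ∀ p ∈ closedBall q D, ∀ x ∈ closedBall q D, ∀ y ∈ closedBall q D, ∀ z w : X,
    ∀ l ∈ Icc (0:ℝ) 1, Frac p x z l → Frac p y w l → l * (1 - ε) * dist x y ≤ dist z w

/-- Existence of points dividing a minimal geodesic in a given ratio. -/
def HasFrac (X : Type*) [MetricSpace X] : Prop :=
  ∀ p x : X, ∀ l ∈ Icc (0:ℝ) 1, ∃ z, Frac p x z l

theorem Frac.one {p x z : X} (h : Frac p x z 1) : z = x := by
  have := h.2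
  simp at this
  exact this

theorem Frac.zero {p x z : X} (h : Frac p x z 0) : z = p := by
  have := h.1
  simp at this
  exact this.symm

/-- uniqueness of the intermediate points of extendable geodesics -/
theorem Frac.unique {q : X} {D ε : ℝ} (hC : Contr X q D ε) (hε : ε < 1) {p x y z z' : X}
    (hy : y ∈ closedBall q D) (hz : z ∈ closedBall q D) (hz' : z' ∈ closedBall q D)
    {l m : ℝ} (hm1 : m < 1)
    (hxy : Frac p y x m) (h : Frac p x z l) (h' : Frac p x z' l) :
    z = z' := by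
  -- the point `x` divides `[y, z]` in the ratio `l'`
  by_cases hpy : dist p y = 0
  · have h1 : dist p x = 0 := by rw [hxy.1, hpy, mul_zero]
    have h2 : dist p z = 0 := by rw [h.1, h1, mul_zero]
    have h3 : dist p z' = 0 := by rw [h'.1, h1, mul_zero]
    rw [← dist_eq_zero]
    have := dist_triangle_left z z' p
    have h4 : (0:ℝ) ≤ dist z z' := dist_nonneg
    linarith
  have hpy' : 0 < dist p y := lt_of_le_of_ne dist_nonneg (Ne.symm hpy)
  have key : ∀ w : X, Frac p x w l → dist y w = dist y x + dist x w := by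
    intro w hw
    apply le_antisymm (dist_triangle y x w)
    have h1 := dist_triangle p w y
    rw [dist_comm y x, dist_comm x w, dist_comm y w, hxy.2, hw.2, hxy.1]
    rw [hw.1, hxy.1] at h1
    nlinarith
  have hT : 0 < dist y x + dist x z := by
    have : 0 < dist y x := by
      rw [dist_comm y x, hxy.2]
      have : 0 < 1 - m := by linarith
      positivity
    have h2 : 0 ≤ dist x z := dist_nonneg
    linarith
  have hxz : dist x z' = dist x z := by
    rw [dist_comm x z', dist_comm x z, h.2, h'.2]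
  set l' : ℝ := dist y x / (dist y x + dist x z) with hl'
  have hl'0 : 0 < l' := by
    rw [hl']
    have : 0 < dist y x := by
      rw [dist_comm y x, hxy.2]
      have : 0 < 1 - m := by linarith
      positivity
    positivity
  have hl'1 : l' ≤ 1 := by
    rw [hl', div_le_one hT]
    have h2 : 0 ≤ dist x z := dist_nonneg
    linarith
  have hf : Frac y z x l' := by
    refine ⟨?_, ?_⟩
    · rw [key z h, hl']
      field_simp
    · rw [key z h, hl']
      field_simp
      ring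
  have hf' : Frac y z' x l' := by
    refine ⟨?_, ?_⟩
    · rw [key z' h', hxz, hl']
      field_simp
    · rw [key z' h', hxz, hl']
      field_simp
      ring
  have := hC y hy z hz z' hz' x x l' ⟨hl'0.le, hl'1⟩ hf hf'
  rw [dist_self] at this
  have h5 : 0 < l' * (1 - ε) := by
    have : 0 < 1 - ε := by linarith
    positivity
  have h6 : (0:ℝ) ≤ dist z z' := dist_nonneg
  rw [← dist_eq_zero]
  nlinarith

variable [MeasurableSpace X] [BorelSpace X]

/-- The measure behaves like an `n`-dimensional measure under Lipschitz maps. -/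
def LipMeas (μ : Measure X) (n : ℕ) : Prop :=
  ∀ (S : Set X) (g : X → X) (Λ : ℝ), 0 ≤ Λ →
    (∀ x ∈ S, ∀ y ∈ S, dist (g x) (g y) ≤ Λ * dist x y) →
    μ (g '' S) ≤ ENNReal.ofReal Λ ^ n * μ S

/-- The Hausdorff measure has this property. -/
theorem lipMeas_hausdorff (n : ℕ) : LipMeas (μH[n] : Measure X) n := by
  intro S g Λ hΛ hg
  have h1 : LipschitzOnWith (Real.toNNReal Λ) g S := by
    apply LipschitzOnWith.of_dist_le_mul
    intro x hx y hy
    rw [Real.coe_toNNReal _ hΛ]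
    exact hg x hx y hy
  have h2 := h1.hausdorffMeasure_image_le (d := (n:ℝ)) (by positivity)
  rw [ENNReal.rpow_natCast] at h2
  exact h2

omit [BorelSpace X] in
/-- Bound of the measure under radial contraction. -/
theorem measure_le_of_contr {μ : Measure X} {q : X} {D ε : ℝ} (hC : Contr X q D ε)
    (hε : ε < 1) {n : ℕ} (hμ : LipMeas μ n) {p : X}
    (hp : p ∈ closedBall q D) {l : ℝ} (hl0 : 0 < l) (hl1 : l ≤ 1) {A A' : Set X}
    (hA : A ⊆ closedBall q D) (hA' : ∀ x ∈ A, ∃ z ∈ A', Frac p x z l) :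
    ENNReal.ofReal ((l * (1 - ε)) ^ n) * μ A ≤ μ A' := by
  classical
  set A'' : Set X := {z ∈ A' | ∃ x ∈ A, Frac p x z l} with hA''
  have hch : ∀ z : A'', ∃ x ∈ A, Frac p x z.1 l := fun z => z.2.2
  choose! g hgA hg using hch
  let f : X → X := fun z => if hz : z ∈ A'' then g ⟨z, hz⟩ else z
  have hpos : 0 < l * (1 - ε) := by
    have : 0 < 1 - ε := by linarith
    positivity
  have hf : ∀ z ∈ A'', ∀ w ∈ A'', dist (f z) (f w) ≤ (l * (1 - ε))⁻¹ * dist z w := by
    intro z hz w hw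
    have h1 : f z = g ⟨z, hz⟩ := by simp only [f]; rw [dif_pos hz]
    have h2 : f w = g ⟨w, hw⟩ := by simp only [f]; rw [dif_pos hw]
    rw [h1, h2]
    have h3 := hC p hp _ (hA (hgA ⟨z, hz⟩)) _ (hA (hgA ⟨w, hw⟩)) z w l ⟨hl0.le, hl1⟩
      (hg ⟨z, hz⟩) (hg ⟨w, hw⟩)
    rw [inv_mul_eq_div, le_div_iff₀ hpos, mul_comm]
    exact h3
  have himg : A ⊆ f '' A'' := by
    intro x hx
    obtain ⟨z, hz, hzx⟩ := hA' x hx
    have hz'' : z ∈ A'' := ⟨hz, x, hx, hzx⟩
    refine ⟨z, hz'', ?_⟩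
    have h1 : f z = g ⟨z, hz''⟩ := by simp only [f]; rw [dif_pos hz'']
    rw [h1]
    have h3 := hC p hp _ (hA (hgA ⟨z, hz''⟩)) _ (hA hx) z z l ⟨hl0.le, hl1⟩
      (hg ⟨z, hz''⟩) hzx
    rw [dist_self] at h3
    have h6 : (0:ℝ) ≤ dist (g ⟨z, hz''⟩) x := dist_nonneg
    rw [← dist_eq_zero]
    nlinarith
  have h1 := hμ A'' f _ (inv_nonneg.2 hpos.le) hf
  have h2 : μ A ≤ ENNReal.ofReal ((l * (1 - ε))⁻¹) ^ n * μ A' :=
    (measure_mono himg).trans (h1.trans (by gcongr; exact fun z hz => hz.1))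
  have h3 : ENNReal.ofReal ((l * (1 - ε)) ^ n) *
      ENNReal.ofReal ((l * (1 - ε))⁻¹) ^ n = 1 := by
    rw [← ENNReal.ofReal_pow (by positivity),
      ← ENNReal.ofReal_mul (by positivity), ← mul_pow, mul_inv_cancel₀ hpos.ne']
    simp
  calc ENNReal.ofReal ((l * (1 - ε)) ^ n) * μ A
      ≤ ENNReal.ofReal ((l * (1 - ε)) ^ n) *
        (ENNReal.ofReal ((l * (1 - ε))⁻¹) ^ n * μ A') := by gcongr
    _ = μ A' := by rw [← mul_assoc, h3, one_mul]

/-- Bishop-Gromov for concentric balls -/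
theorem ball_ratio {μ : Measure X} {q : X} {D ε : ℝ} (hC : Contr X q D ε) (hF : HasFrac X)
    (hε : ε < 1) {n : ℕ} (hμ : LipMeas μ n) {r s : ℝ} (hr : 0 ≤ r) (hrD : r ≤ D) (hs0 : 0 < s) (hs1 : s ≤ 1) :
    ENNReal.ofReal ((s * (1 - ε)) ^ n) * μ (closedBall q r) ≤
      μ (closedBall q (s * r)) := by
  apply measure_le_of_contr hC hε hμ (p := q) (mem_closedBall_self (hr.trans hrD)) hs0 hs1
    (closedBall_subset_closedBall hrD)
  intro x hx
  obtain ⟨z, hz⟩ := hF q x s ⟨hs0.le, hs1⟩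
  refine ⟨z, ?_, hz⟩
  rw [mem_closedBall, dist_comm, hz.1]
  rw [mem_closedBall, dist_comm] at hx
  exact mul_le_mul_of_nonneg_left hx hs0.le

omit [MeasurableSpace X] [BorelSpace X] in
theorem isClosed_frac (p : X) : IsClosed {a : X × ℝ × X | Frac p a.1 a.2.2 a.2.1} := by
  have h1 : IsClosed {a : X × ℝ × X | dist p a.2.2 = a.2.1 * dist p a.1} :=
    isClosed_eq (by fun_prop) (by fun_prop)
  have h2 : IsClosed {a : X × ℝ × X | dist a.2.2 a.1 = (1 - a.2.1) * dist p a.1} :=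
    isClosed_eq (by fun_prop) (by fun_prop)
  exact h1.inter h2

/-- The points of the ball dividing a segment `[p, y]`, `y` in the ball, in a ratio in `I`. -/
def Ext (q p : X) (r : ℝ) (I : Set ℝ) : Set X :=
  {z ∈ closedBall q r | ∃ y ∈ closedBall q r, ∃ l ∈ I, Frac p y z l}

omit [MeasurableSpace X] [BorelSpace X] in
theorem isCompact_ext [ProperSpace X] (q p : X) (r : ℝ) {I : Set ℝ} (hI : IsCompact I) :
    IsCompact (Ext q p r I) := by
  have h : IsCompact (((closedBall q r) ×ˢ (I ×ˢ (closedBall q r))) ∩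
      {a : X × ℝ × X | Frac p a.1 a.2.2 a.2.1}) :=
    ((isCompact_closedBall q r).prod (hI.prod (isCompact_closedBall q r))).inter_right
      (isClosed_frac p)
  have h2 := h.image (f := fun a : X × ℝ × X => a.2.2) (by fun_prop)
  convert h2 using 1
  ext z
  constructor
  · rintro ⟨hz, y, hy, l, hl, hf⟩
    exact ⟨(y, l, z), ⟨⟨hy, hl, hz⟩, hf⟩, rfl⟩
  · rintro ⟨⟨y, l, w⟩, ⟨⟨hy, hl, hw⟩, hf⟩, rfl⟩
    exact ⟨hw, y, hy, l, hl, hf⟩

/-- The measure of the typical points for one centre `p`. -/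
theorem typical_one [ProperSpace X] {μ : Measure X} {q : X} {D ε : ℝ} (hC : Contr X q D ε)
    (hF : HasFrac X) (hε : ε < 1) {n : ℕ} (hμ : LipMeas μ n) {r R θ η : ℝ} (hr : 0 < r)
    (hrD : R + r ≤ D)
    (hθ0 : 0 < θ) (hθ1 : θ < 1) (hR : 0 < R) (hη0 : 0 ≤ η) (hη1 : η ≤ 1) (hθR : 2 * θ * R < r)
    (hfin : μ (closedBall q r) ≠ ∞) {p : X} (hp : p ∈ closedBall q D)
    (hpR : ∀ x ∈ closedBall q r, dist p x ≤ R) {Bad : Set X} (hBad : IsClosed Bad)
    (hS : ∀ x ∈ closedBall q r, ∀ c : ℝ → X, c 0 = p → c 1 = x →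
      (∀ s ∈ Icc (0:ℝ) 1, ∀ s' ∈ Icc (0:ℝ) 1, dist (c s) (c s') = |s - s'| * dist p x) →
      volume {l ∈ Icc (1 - θ) (1 - θ / 2) | c l ∈ Bad} ≤ ENNReal.ofReal (η * (θ / 2))) :
    ENNReal.ofReal (((1 - θ) * (1 - ε)) ^ n * ((1 - η) * (((1 - θ) * (1 - ε)) ^ n *
      ((1 - 2 * θ * R / r) * (1 - ε)) ^ n))) * μ (closedBall q r) ≤
      μ (Ext q p r (Icc (1 - θ) (1 - θ / 2)) \ Bad) := by
  have hrD' : r ≤ D := by linarith
  have hRD : ∀ x ∈ closedBall q r, x ∈ closedBall q D := fun x hx =>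
    closedBall_subset_closedBall hrD' hx
  -- step 1
  set s : ℝ := 1 - 2 * θ * R / r with hs
  have hs0 : 0 < s := by
    rw [hs, sub_pos, div_lt_one hr]; exact hθR
  have hs1 : s ≤ 1 := by
    rw [hs]
    have : 0 ≤ 2 * θ * R / r := by positivity
    linarith
  have hsr : s * r = r - 2 * θ * R := by
    rw [hs]; field_simp
  have h1 := ball_ratio hC hF hε hμ hr.le hrD' hs0 hs1
  -- step 2
  set E₀ : Set X := {x ∈ closedBall q (r - θ * R) | ∃ y ∈ closedBall q r, Frac p y x (1 - θ)}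
    with hE₀
  have hE₀c : IsCompact E₀ := by
    have h : IsCompact (((closedBall q r) ×ˢ (({1 - θ} : Set ℝ) ×ˢ (closedBall q (r - θ * R)))) ∩
        {a : X × ℝ × X | Frac p a.1 a.2.2 a.2.1}) :=
      ((isCompact_closedBall q r).prod (isCompact_singleton.prod
        (isCompact_closedBall q _))).inter_right (isClosed_frac p)
    have h2 := h.image (f := fun a : X × ℝ × X => a.2.2) (by fun_prop)
    convert h2 using 1
    ext z
    constructor
    · rintro ⟨hz, y, hy, hf⟩
      exact ⟨(y, 1 - θ, z), ⟨⟨hy, rfl, hz⟩, hf⟩, rfl⟩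
    · rintro ⟨⟨y, l, w⟩, ⟨⟨hy, hl, hw⟩, hf⟩, rfl⟩
      simp only [mem_singleton_iff] at hl
      subst hl
      exact ⟨hw, y, hy, hf⟩
  have hE₀B : E₀ ⊆ closedBall q r := fun x hx =>
    closedBall_subset_closedBall (by nlinarith) hx.1
  have h2 : ENNReal.ofReal (((1 - θ) * (1 - ε)) ^ n) * μ (closedBall q (s * r)) ≤
      μ E₀ := by
    apply measure_le_of_contr hC hε hμ hp (by linarith) (by linarith)
      (closedBall_subset_closedBall ((mul_le_of_le_one_left hr.le hs1).trans hrD'))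
    intro y hy
    obtain ⟨x, hx⟩ := hF p y (1 - θ) ⟨by linarith, by linarith⟩
    have hyr : y ∈ closedBall q r :=
      closedBall_subset_closedBall (mul_le_of_le_one_left hr.le hs1) hy
    refine ⟨x, ⟨?_, y, hyr, hx⟩, hx⟩
    rw [mem_closedBall] at hy ⊢
    have h3 := dist_triangle x y q
    have h4 := hx.2
    have h5 := hpR y hyr
    rw [hsr] at hy
    nlinarith
  -- step 3: Fubini
  set I : Set ℝ := Icc (1 - θ) (1 - θ / 2) with hI
  set S : Set (X × ℝ) := {a | a.1 ∈ E₀ ∧ a.2 ∈ I ∧ ∃ z ∈ closedBall q r ∩ Bad, Frac p a.1 z a.2}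
    with hSdef
  have hSc : IsCompact S := by
    have h : IsCompact ((E₀ ×ˢ (I ×ˢ (closedBall q r ∩ Bad))) ∩
        {a : X × ℝ × X | Frac p a.1 a.2.2 a.2.1}) :=
      (hE₀c.prod (isCompact_Icc.prod ((isCompact_closedBall q r).inter_right hBad))).inter_right
        (isClosed_frac p)
    have h2 := h.image (f := fun a : X × ℝ × X => (a.1, a.2.1)) (by fun_prop)
    convert h2 using 1
    ext ⟨x, l⟩
    constructor
    · rintro ⟨hx, hl, z, hz, hf⟩
      exact ⟨(x, l, z), ⟨⟨hx, hl, hz⟩, hf⟩, rfl⟩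
    · rintro ⟨⟨x', l', z⟩, ⟨⟨hx, hl, hz⟩, hf⟩, he⟩
      simp only [Prod.mk.injEq] at he
      obtain ⟨rfl, rfl⟩ := he
      exact ⟨hx, hl, z, hz, hf⟩
  have hSm : MeasurableSet S := hSc.measurableSet
  have hE₀fin : μ E₀ ≠ ∞ := ne_top_of_le_ne_top hfin (measure_mono hE₀B)
  have hsec : ∀ x ∈ E₀, volume (Prod.mk x ⁻¹' S) ≤ ENNReal.ofReal (η * (θ / 2)) := by
    intro x hx
    have hx0 := hx
    obtain ⟨hx1, y, hy, hxy⟩ := hx
    have hxr : x ∈ closedBall q r := hE₀B hx0
    -- the points of `[p, x]` are unique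
    have hD : ∀ l ∈ Icc (0:ℝ) 1, ∀ w, Frac p x w l → w ∈ closedBall q D := by
      intro l hl w hw
      rw [mem_closedBall] at hxr ⊢
      have h3 := dist_triangle w x q
      have h4 := hw.2
      have h5 := hpR x hxr
      have h7 : (1 - l) * dist p x ≤ 1 * R :=
        mul_le_mul (by linarith [hl.1]) h5 dist_nonneg (by norm_num)
      linarith
    have huniq : ∀ l ∈ Icc (0:ℝ) 1, ∀ w w', Frac p x w l → Frac p x w' l → w = w' :=
      fun l hl w w' hw hw' => Frac.unique hC hε (hRD y hy) (hD l hl w hw) (hD l hl w' hw')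
        (m := 1 - θ) (by linarith) hxy hw hw'
    have hch : ∀ l : ℝ, ∃ z, l ∈ Icc (0:ℝ) 1 → Frac p x z l := by
      intro l
      by_cases hl : l ∈ Icc (0:ℝ) 1
      · obtain ⟨z, hz⟩ := hF p x l hl
        exact ⟨z, fun _ => hz⟩
      · exact ⟨p, fun h => absurd h hl⟩
    choose c hc using hch
    have hle : ∀ s ∈ Icc (0:ℝ) 1, ∀ s' ∈ Icc (0:ℝ) 1, s ≤ s' →
        dist (c s) (c s') = (s' - s) * dist p x := by
      intro s hs s' hs' hss
      rcases eq_or_lt_of_le hs'.1 with h0 | h0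
      · have hs0 : s = 0 := le_antisymm (by rw [h0]; exact hss) hs.1
        rw [← h0, hs0, dist_self]; simp
      · obtain ⟨v, hv⟩ := hF p (c s') (s / s') ⟨div_nonneg hs.1 h0.le, by
          rw [div_le_one h0]; exact hss⟩
        have h1 := (hc s' hs').1
        have h2 := (hc s' hs').2
        have h3 : dist p v = s * dist p x := by
          rw [hv.1, h1]; field_simp
        have h4 : dist v (c s') = (s' - s) * dist p x := by
          rw [hv.2, h1]; field_simp
        have h5 : dist v x = (1 - s) * dist p x := by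
          have h6 := dist_triangle v (c s') x
          have h7 := dist_triangle p v x
          rw [h4, h2] at h6
          rw [h3] at h7
          linarith
        have h8 : v = c s := huniq s hs v (c s) ⟨h3, h5⟩ (hc s hs)
        rw [← h8]
        exact h4
    have hc0 : c 0 = p := Frac.zero (hc 0 ⟨le_rfl, zero_le_one⟩)
    have hc1 : c 1 = x := Frac.one (hc 1 ⟨zero_le_one, le_rfl⟩)
    have hcd : ∀ s ∈ Icc (0:ℝ) 1, ∀ s' ∈ Icc (0:ℝ) 1,
        dist (c s) (c s') = |s - s'| * dist p x := by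
      intro s hs s' hs'
      rcases le_total s s' with h | h
      · rw [hle s hs s' hs' h, abs_sub_comm, abs_of_nonneg (by linarith)]
      · rw [dist_comm, hle s' hs' s hs h, abs_of_nonneg (by linarith)]
    refine (measure_mono ?_).trans (hS x hxr c hc0 hc1 hcd)
    rintro l ⟨-, hl, z, hz, hf⟩
    refine ⟨hl, ?_⟩
    have hl01 : l ∈ Icc (0:ℝ) 1 := ⟨by have := hl.1; linarith, by have := hl.2; linarith⟩
    have hcz : c l = z := huniq l hl01 _ _ (hc l hl01) hf
    rw [hcz]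
    exact hz.2
  have : IsFiniteMeasure (μ.restrict E₀) := ⟨by
    rw [Measure.restrict_apply_univ]; exact hE₀fin.lt_top⟩
  have : IsFiniteMeasure ((volume : Measure ℝ).restrict I) := ⟨by
    rw [Measure.restrict_apply_univ]; exact isCompact_Icc.measure_lt_top⟩
  have hprod : ((μ.restrict E₀).prod (volume.restrict I)) S ≤
      ENNReal.ofReal (η * (θ / 2)) * μ E₀ := by
    rw [Measure.prod_apply hSm]
    calc ∫⁻ x in E₀, (volume.restrict I) (Prod.mk x ⁻¹' S) ∂μ
        ≤ ∫⁻ _x in E₀, ENNReal.ofReal (η * (θ / 2)) ∂μ := by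
          apply setLIntegral_mono' hE₀c.measurableSet
          intro x hx
          exact (Measure.restrict_apply_le _ _).trans (hsec x hx)
      _ = ENNReal.ofReal (η * (θ / 2)) * μ E₀ := by
          rw [setLIntegral_const]
  rw [Measure.prod_apply_symm hSm] at hprod
  have hvI : volume I = ENNReal.ofReal (θ / 2) := by
    rw [hI, Real.volume_Icc]; congr 1; ring
  have hvI0 : volume I ≠ 0 := by
    rw [hvI]; simpa using hθ0
  obtain ⟨l, hlI, hl⟩ := exists_le_setLAverage hvI0 (by rw [hvI]; exact ENNReal.ofReal_ne_top)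
    (measurable_measure_prodMk_right hSm
      (μ := μ.restrict E₀)).aemeasurable (μ := (volume : Measure ℝ))
  rw [setLAverage_eq, hvI] at hl
  have hl' : (μ.restrict E₀) ((fun x => (x, l)) ⁻¹' S) ≤
      ENNReal.ofReal η * μ E₀ := by
    refine hl.trans ?_
    rw [ENNReal.div_le_iff (by simpa using hθ0) ENNReal.ofReal_ne_top]
    refine hprod.trans (le_of_eq ?_)
    rw [ENNReal.ofReal_mul hη0]
    ring
  -- step 4: the good points
  set N : Set X := (fun x => (x, l)) ⁻¹' S with hN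
  have hNm : MeasurableSet N := hSm.preimage (by fun_prop)
  have hgood : ENNReal.ofReal (1 - η) * μ E₀ ≤ μ (E₀ \ N) := by
    have h3 : μ (E₀ ∩ N) ≤ ENNReal.ofReal η * μ E₀ := by
      rw [Measure.restrict_apply hNm, inter_comm] at hl'
      exact hl'
    have h4 : μ (E₀ ∩ N) + μ (E₀ \ N) = μ E₀ := measure_inter_add_sdiff E₀ hNm
    have h5 : ENNReal.ofReal (1 - η) * μ E₀ + ENNReal.ofReal η * μ E₀ = μ E₀ := by
      rw [← add_mul, ← ENNReal.ofReal_add (by linarith) hη0]
      simp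
    have h6 : ENNReal.ofReal η * μ E₀ ≠ ∞ := ENNReal.mul_ne_top ENNReal.ofReal_ne_top hE₀fin
    rw [← ENNReal.add_le_add_iff_right h6, h5, add_comm]
    calc μ E₀ = μ (E₀ ∩ N) + μ (E₀ \ N) := h4.symm
      _ ≤ ENNReal.ofReal η * μ E₀ + μ (E₀ \ N) := by gcongr
  have hl0 : 0 < l := by have := hlI.1; linarith
  have hl1 : l ≤ 1 := by have := hlI.2; linarith
  have h4 : ENNReal.ofReal ((l * (1 - ε)) ^ n) * μ (E₀ \ N) ≤ μ (Ext q p r I \ Bad) := by
    apply measure_le_of_contr hC hε hμ hp hl0 hl1 (fun x hx => hRD x (hE₀B hx.1))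
    intro x hx
    obtain ⟨z, hz⟩ := hF p x l ⟨hl0.le, hl1⟩
    have hxr : x ∈ closedBall q r := hE₀B hx.1
    have hzr : z ∈ closedBall q r := by
      rw [mem_closedBall]
      have h3 := dist_triangle z x q
      have h4 := hz.2
      have h5 := hpR x hxr
      have h6 : dist x q ≤ r - θ * R := hx.1.1
      have h7 : (1 - l) * dist p x ≤ θ * R := by
        have := hlI.1
        have h8 : (0:ℝ) ≤ dist p x := dist_nonneg
        have h9 : 1 - l ≤ θ := by linarith
        exact mul_le_mul h9 h5 h8 hθ0.le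
      linarith
    refine ⟨z, ⟨⟨hzr, x, hxr, l, hlI, hz⟩, fun hzb => hx.2 ?_⟩, hz⟩
    exact ⟨hx.1, hlI, z, ⟨hzr, hzb⟩, hz⟩
  have h5 : ENNReal.ofReal (((1 - θ) * (1 - ε)) ^ n) * μ (E₀ \ N) ≤
      μ (Ext q p r I \ Bad) := by
    refine le_trans ?_ h4
    have h1ε : 0 ≤ 1 - ε := by linarith
    have h1θ : 0 ≤ 1 - θ := by linarith
    have h1l : 1 - θ ≤ l := hlI.1
    gcongr
  have hθε : 0 ≤ (1 - θ) * (1 - ε) := mul_nonneg (by linarith) (by linarith)
  have hsε : 0 ≤ s * (1 - ε) := mul_nonneg hs0.le (by linarith)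
  calc ENNReal.ofReal (((1 - θ) * (1 - ε)) ^ n * ((1 - η) * (((1 - θ) * (1 - ε)) ^ n *
      (s * (1 - ε)) ^ n))) * μ (closedBall q r)
      = ENNReal.ofReal (((1 - θ) * (1 - ε)) ^ n) * (ENNReal.ofReal (1 - η) *
        (ENNReal.ofReal (((1 - θ) * (1 - ε)) ^ n) *
        (ENNReal.ofReal ((s * (1 - ε)) ^ n) * μ (closedBall q r)))) := by
        rw [ENNReal.ofReal_mul (by positivity), ENNReal.ofReal_mul (by linarith),
          ENNReal.ofReal_mul (by positivity)]
        ring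
    _ ≤ ENNReal.ofReal (((1 - θ) * (1 - ε)) ^ n) * (ENNReal.ofReal (1 - η) * μ E₀) := by
        gcongr
        refine le_trans ?_ h2
        gcongr
    _ ≤ ENNReal.ofReal (((1 - θ) * (1 - ε)) ^ n) * μ (E₀ \ N) := by gcongr
    _ ≤ μ (Ext q p r I \ Bad) := h5

theorem one_sub_mul_ge {a b α β : ℝ} (ha : 1 - α ≤ a) (ha1 : a ≤ 1)
    (hb : 1 - β ≤ b) (hb1 : b ≤ 1) : 1 - (α + β) ≤ a * b := by
  nlinarith

theorem pow_ge_one_sub (a : ℝ) (ha0 : 0 ≤ a) (n : ℕ) : 1 - n * (1 - a) ≤ a ^ n := by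
  have := one_add_mul_le_pow (a := a - 1) (by linarith) n
  have h2 : 1 + (a - 1) = a := by ring
  rw [h2] at this
  linarith

/-- Typical points: finitely many centres. -/
theorem exists_typical [ProperSpace X] {μ : Measure X} {q : X} {D ε : ℝ} (hC : Contr X q D ε)
    (hF : HasFrac X) (hε0 : 0 ≤ ε) (hε : ε < 1) {n : ℕ} (hμ : LipMeas μ n) {r R θ η : ℝ}
    (hr : 0 < r) (hrD : R + r ≤ D)
    (hθ0 : 0 < θ) (hθ1 : θ < 1) (hR : 0 < R) (hη0 : 0 ≤ η) (hη1 : η ≤ 1) (hθR : 2 * θ * R < r)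
    (hfin : μ (closedBall q r) ≠ ∞) (hpos : μ (closedBall q r) ≠ 0)
    {ι : Type*} [Fintype ι] (p : ι → X) (hp : ∀ i, p i ∈ closedBall q D)
    (hpR : ∀ i, ∀ x ∈ closedBall q r, dist (p i) x ≤ R) (Bad : ι → Set X)
    (hBad : ∀ i, IsClosed (Bad i))
    (hS : ∀ i, ∀ x ∈ closedBall q r, ∀ c : ℝ → X, c 0 = p i → c 1 = x →
      (∀ s ∈ Icc (0:ℝ) 1, ∀ s' ∈ Icc (0:ℝ) 1, dist (c s) (c s') = |s - s'| * dist (p i) x) →
      volume {l ∈ Icc (1 - θ) (1 - θ / 2) | c l ∈ Bad i} ≤ ENNReal.ofReal (η * (θ / 2)))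
    (hL : (Fintype.card ι : ℝ) * (η + 3 * n * ε + 2 * n * θ * (1 + R / r)) < 1) :
    ∃ z ∈ closedBall q r, ∀ i, z ∉ Bad i ∧
      ∃ y ∈ closedBall q r, ∃ l ∈ Icc (1 - θ) (1 - θ / 2), Frac (p i) y z l := by
  set B : Set X := closedBall q r with hB
  set Z : ι → Set X := fun i => Ext q (p i) r (Icc (1 - θ) (1 - θ / 2)) \ Bad i with hZ
  have hZB : ∀ i, Z i ⊆ B := fun i z hz => hz.1.1
  have hZm : ∀ i, MeasurableSet (Z i) := fun i =>
    (isCompact_ext q (p i) r isCompact_Icc).measurableSet.diff (hBad i).measurableSet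
  set a : ℝ := (1 - θ) * (1 - ε) with ha
  set s : ℝ := 1 - 2 * θ * R / r with hs
  have hs0 : 0 < s := by
    rw [hs, sub_pos, div_lt_one hr]; exact hθR
  have hs1 : s ≤ 1 := by
    rw [hs]
    have : 0 ≤ 2 * θ * R / r := by positivity
    linarith
  set F : ℝ := a ^ n * ((1 - η) * (a ^ n * (s * (1 - ε)) ^ n)) with hFdef
  have ha0 : 0 ≤ a := mul_nonneg (by linarith) (by linarith)
  have ha1 : a ≤ 1 := mul_le_one₀ (by linarith) (by linarith) (by linarith)
  have hb0 : 0 ≤ s * (1 - ε) := mul_nonneg hs0.le (by linarith)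
  have hb1 : s * (1 - ε) ≤ 1 := mul_le_one₀ hs1 (by linarith) (by linarith)
  have hFle : 1 - F ≤ η + 3 * n * ε + 2 * n * θ * (1 + R / r) := by
    have hn : (0:ℝ) ≤ n := Nat.cast_nonneg n
    have h1 : 1 - a ≤ θ + ε := by rw [ha]; nlinarith
    have h2 : 1 - s * (1 - ε) ≤ 2 * θ * R / r + ε := by
      have : 1 - s = 2 * θ * R / r := by rw [hs]; ring
      nlinarith
    have h3 : 1 - n * (θ + ε) ≤ a ^ n := by
      have := pow_ge_one_sub a ha0 n
      nlinarith
    have h4 : 1 - n * (2 * θ * R / r + ε) ≤ (s * (1 - ε)) ^ n := by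
      have := pow_ge_one_sub (s * (1 - ε)) hb0 n
      nlinarith
    have h5 := one_sub_mul_ge h3 (pow_le_one₀ ha0 ha1) h4
      (pow_le_one₀ hb0 hb1)
    have h6 := one_sub_mul_ge (a := 1 - η) (α := η) le_rfl (by linarith) h5
      (mul_le_one₀ (pow_le_one₀ ha0 ha1) (pow_nonneg hb0 n) (pow_le_one₀ hb0 hb1))
    have h7 := one_sub_mul_ge h3 (pow_le_one₀ ha0 ha1) h6
      (mul_le_one₀ (by linarith) (mul_nonneg (pow_nonneg ha0 n) (pow_nonneg hb0 n))
        (mul_le_one₀ (pow_le_one₀ ha0 ha1) (pow_nonneg hb0 n) (pow_le_one₀ hb0 hb1)))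
    have h8 : (n:ℝ) * (θ + ε) + (η + (n * (θ + ε) + n * (2 * θ * R / r + ε))) =
        η + 3 * n * ε + 2 * n * θ * (1 + R / r) := by
      field_simp
      ring
    rw [← h8]
    linarith
  have hF0 : 0 ≤ F := by
    have : 0 ≤ 1 - η := by linarith
    positivity
  have hcompl : ∀ i, μ (B \ Z i) ≤ ENNReal.ofReal (1 - F) * μ B := by
    intro i
    have h1 := typical_one hC hF hε hμ hr hrD hθ0 hθ1 hR hη0 hη1 hθR hfin (hp i) (hpR i)
      (hBad i) (hS i)
    have hZfin : μ (Z i) ≠ ∞ := ne_top_of_le_ne_top hfin (measure_mono (hZB i))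
    have h2 : μ (B \ Z i) = μ B - μ (Z i) :=
      measure_sdiff (hZB i) (hZm i).nullMeasurableSet hZfin
    have hF1 : F ≤ 1 := by
      rw [hFdef]
      exact mul_le_one₀ (pow_le_one₀ ha0 ha1) (by
        have : 0 ≤ 1 - η := by linarith
        positivity) (mul_le_one₀ (by linarith)
        (mul_nonneg (pow_nonneg ha0 n) (pow_nonneg hb0 n))
        (mul_le_one₀ (pow_le_one₀ ha0 ha1) (pow_nonneg hb0 n) (pow_le_one₀ hb0 hb1)))
    rw [h2, tsub_le_iff_right]
    calc μ B = ENNReal.ofReal (1 - F) * μ B + ENNReal.ofReal F * μ B := by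
          rw [← add_mul, ← ENNReal.ofReal_add (by linarith) hF0]
          simp
      _ ≤ ENNReal.ofReal (1 - F) * μ B + μ (Z i) := by
          gcongr
  have hunion : μ (⋃ i, B \ Z i) < μ B := by
    calc μ (⋃ i, B \ Z i) ≤ ∑ i, μ (B \ Z i) := measure_iUnion_fintype_le _ _
      _ ≤ ∑ _i : ι, ENNReal.ofReal (1 - F) * μ B := Finset.sum_le_sum (fun i _ => hcompl i)
      _ = (Fintype.card ι : ℝ≥0∞) * ENNReal.ofReal (1 - F) * μ B := by
          rw [Finset.sum_const, Finset.card_univ, nsmul_eq_mul, mul_assoc]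
      _ < 1 * μ B := by
          apply (ENNReal.mul_lt_mul_iff_left hpos hfin).2
          rw [← ENNReal.ofReal_natCast, ← ENNReal.ofReal_mul (by positivity),
            ← ENNReal.ofReal_one]
          apply (ENNReal.ofReal_lt_ofReal_iff one_pos).2
          refine lt_of_le_of_lt ?_ hL
          exact mul_le_mul_of_nonneg_left hFle (by positivity)
      _ = μ B := one_mul _
  obtain ⟨z, hzB, hz⟩ : ∃ z ∈ B, z ∉ ⋃ i, B \ Z i := by
    by_contra hcon
    push Not at hcon
    exact absurd (measure_mono (μ := μ) hcon) (not_le.2 hunion)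
  refine ⟨z, hzB, fun i => ?_⟩
  have hzi : z ∈ Z i := by
    by_contra hzi
    exact hz (mem_iUnion.2 ⟨i, hzB, hzi⟩)
  exact ⟨hzi.2, hzi.1.2⟩

end Vale.Agent.P210.H204
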