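import Vale.Agent.P210.R2.H204.Meas
import Vale.Agent.P210.R2.H53.StmtMod

/-! The module `MEAS`: `Stmt.MEAS` holds. -/

open Set Metric MeasureTheory
open scoped ENNReal NNReal Topology

noncomputable section

namespace Vale.Agent.P210.H204

open Vale.Agent.P210.R2.H53

theorem meas_holds : Stmt.MEAS := by
  intro n L κ hκ0 hκ1
  set m : ℝ := (n + 1) * (L + 1) with hm
  have hn : (0:ℝ) ≤ n := Nat.cast_nonneg n
  have hLn : (0:ℝ) ≤ L := Nat.cast_nonneg L
  have hm1 : 1 ≤ m := by rw [hm]; nlinarith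
  set θ' : ℝ := κ / (200 * m) with hθ'
  set ε : ℝ := 1 / (12 * m) with hε
  set η : ℝ := 1 / (4 * (L + 1)) with hη
  have hθ'0 : 0 < θ' := by positivity
  have hθ'κ : θ' * 200 ≤ κ := by
    rw [hθ', div_mul_eq_mul_div, div_le_iff₀ (by positivity)]
    nlinarith
  have hε0 : 0 < ε := by positivity
  have hε1 : ε ≤ 1 / 12 := by
    rw [hε]
    apply one_div_le_one_div_of_le (by norm_num)
    linarith
  have hη0 : 0 < η := by positivity
  have hη1 : η ≤ 1 / 4 := by
    rw [hη]
    apply one_div_le_one_div_of_le (by norm_num)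
    linarith
  refine ⟨θ' / 2, by positivity, by linarith, ε, hε0, by linarith, 2 / (η * θ'), by positivity, ?_⟩
  intro X _ _ _ _ μ q t A N p f ht hA hNL hμball hμ hgeo hcon hp hf0 hfc hfint
  set r : ℝ := κ * t / 4 with hr
  have hr0 : 0 < r := by positivity
  have hrt : r ≤ t / 4 := by rw [hr]; nlinarith
  -- the hypotheses of `exists_typical`
  have hC : Contr X q (4 * t) ε := by
    intro o ho x hx y hy z w l hl hz hw
    rcases eq_or_lt_of_le hl.1 with h0 | h0
    · rw [← h0]; simp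
    · exact hcon o x y z w l ⟨h0, hl.2⟩ ho hx hy hz.1 hz.2 hw.1 hw.2
  have hF : HasFrac X := fun x y l hl => hgeo x y l hl
  have hfrac : ∀ j z w s, Frac (p j) w z s →
      dist (p j) z = s * dist (p j) w ∧ dist z w = (1 - s) * dist (p j) w :=
    fun j z w s h => h
  -- the bad sets
  set E : Fin N → Set X := fun j => Ext q (p j) r (Icc (1 - θ') (1 - θ' / 2)) with hE
  have hEc : ∀ j, IsCompact (E j) := fun j => isCompact_ext q (p j) r isCompact_Icc
  have hEsub : ∀ j, E j ⊆ {z | ∃ w, dist w q ≤ κ * t / 4 ∧ ∃ s ∈ Icc (1 / 2 : ℝ) (1 - θ' / 2),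
        dist (p j) z = s * dist (p j) w ∧ dist z w = (1 - s) * dist (p j) w} := by
    rintro j z ⟨-, y, hy, l, hl, hz⟩
    exact ⟨y, hy, l, ⟨by linarith [hl.1], hl.2⟩, hz⟩
  set c₀ : ℝ := 2 / (η * θ') * A with hc₀
  have hc₀0 : 0 < c₀ := by positivity
  set Bad : Fin N → Set X := fun j => E j ∩ (f j) ⁻¹' (Ici c₀) with hBad
  have hBadc : ∀ j, IsClosed (Bad j) := fun j =>
    ((hfc j).mono (hEsub j)).preimage_isClosed_of_isClosed (hEc j).isClosed isClosed_Ici
  have hS : ∀ i, ∀ x ∈ closedBall q r, ∀ c : ℝ → X, c 0 = p i → c 1 = x →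
      (∀ s ∈ Icc (0:ℝ) 1, ∀ s' ∈ Icc (0:ℝ) 1, dist (c s) (c s') = |s - s'| * dist (p i) x) →
      volume {l ∈ Icc (1 - θ') (1 - θ' / 2) | c l ∈ Bad i} ≤ ENNReal.ofReal (η * (θ' / 2)) := by
    intro i x hx c hc0 hc1 hcd
    have hint := hfint i x hx c hc0 hc1 hcd
    set J : Set ℝ := Icc (1 - 4 * (θ' / 2)) (1 - θ' / 2) with hJ
    have hJ01 : J ⊆ Icc 0 1 := Icc_subset_Icc (by linarith) (by linarith)
    have hcc : ContinuousOn c J := by
      have : LipschitzOnWith (Real.toNNReal (dist (p i) x)) c J := by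
        apply LipschitzOnWith.of_dist_le_mul
        intro s hs s' hs'
        rw [hcd s (hJ01 hs) s' (hJ01 hs'), Real.coe_toNNReal _ dist_nonneg, Real.dist_eq]
        linarith [mul_comm |s - s'| (dist (p i) x)]
      exact this.continuousOn
    have hmaps : MapsTo c J {z | ∃ w, dist w q ≤ κ * t / 4 ∧ ∃ s ∈ Icc (1 / 2 : ℝ) (1 - θ' / 2),
        dist (p i) z = s * dist (p i) w ∧ dist z w = (1 - s) * dist (p i) w} := by
      intro s hs
      refine ⟨x, hx, s, ⟨by linarith [hs.1], hs.2⟩, ?_, ?_⟩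
      · have h1 := hcd 0 ⟨le_rfl, zero_le_one⟩ s (hJ01 hs)
        rw [hc0, zero_sub, abs_neg, abs_of_nonneg (hJ01 hs).1] at h1
        exact h1
      · have h1 := hcd s (hJ01 hs) 1 ⟨zero_le_one, le_rfl⟩
        rw [hc1, abs_sub_comm, abs_of_nonneg (by linarith [(hJ01 hs).2])] at h1
        exact h1
    have hfcJ : ContinuousOn (fun s => f i (c s)) J := (hfc i).comp hcc hmaps
    have hintJ : IntegrableOn (fun s => f i (c s)) J := hfcJ.integrableOn_Icc
    have hmk : volume {l ∈ J | c₀ ≤ f i (c l)} * ENNReal.ofReal c₀ ≤ ENNReal.ofReal A := by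
      have h1 := mul_meas_ge_le_lintegral₀ (μ := volume.restrict J)
        (f := fun s => ENNReal.ofReal (f i (c s)))
        hintJ.aestronglyMeasurable.aemeasurable.ennreal_ofReal (ENNReal.ofReal c₀)
      rw [← ofReal_integral_eq_lintegral_ofReal hintJ (ae_of_all _ fun s => hf0 i _)] at h1
      have h2 : {l ∈ J | c₀ ≤ f i (c l)} ⊆
          {s | ENNReal.ofReal c₀ ≤ ENNReal.ofReal (f i (c s))} ∩ J :=
        fun s hs => ⟨ENNReal.ofReal_le_ofReal hs.2, hs.1⟩
      rw [mul_comm]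
      calc ENNReal.ofReal c₀ * volume {l ∈ J | c₀ ≤ f i (c l)}
          ≤ ENNReal.ofReal c₀ *
            (volume.restrict J) {s | ENNReal.ofReal c₀ ≤ ENNReal.ofReal (f i (c s))} :=
            mul_le_mul' le_rfl ((measure_mono h2).trans (Measure.le_restrict_apply _ _))
        _ ≤ _ := h1
        _ ≤ ENNReal.ofReal A := ENNReal.ofReal_le_ofReal hint
    have hsub : {l ∈ Icc (1 - θ') (1 - θ' / 2) | c l ∈ Bad i} ⊆ {l ∈ J | c₀ ≤ f i (c l)} := by
      rintro l ⟨hl, hb⟩
      exact ⟨⟨by linarith [hl.1], hl.2⟩, hb.2⟩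
    refine (measure_mono hsub).trans ?_
    rw [← ENNReal.le_div_iff_mul_le (Or.inl (by simpa using hc₀0))
      (Or.inl ENNReal.ofReal_ne_top)] at hmk
    refine hmk.trans ?_
    rw [← ENNReal.ofReal_div_of_pos hc₀0]
    apply ENNReal.ofReal_le_ofReal
    rw [hc₀]
    apply le_of_eq
    field_simp
  have hpR : ∀ i, ∀ x ∈ closedBall q r, dist (p i) x ≤ 2 * t := by
    intro i x hx
    rw [mem_closedBall] at hx
    have := dist_triangle_right (p i) x q
    have := (hp i).2
    linarith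
  obtain ⟨z, hz, hzi⟩ := exists_typical (μ := μ) hC hF hε0.le (by linarith) (n := n)
    (fun S g Λ h1 h2 => hμ S g Λ h1 h2) (r := r) (R := 2 * t) (θ := θ') (η := η) hr0
    (by linarith) hθ'0 (by linarith) (by linarith) hη0.le (by linarith)
    (by rw [hr]; nlinarith) ((hμball q r hr0).2.ne) ((hμball q r hr0).1.ne') p
    (fun i => by rw [mem_closedBall]; linarith [(hp i).2]) hpR Bad hBadc hS (by
      rw [Fintype.card_fin]
      have h1 : (N:ℝ) ≤ L := by exact_mod_cast hNL
      have h2 : 2 * t / r = 8 / κ := by rw [hr]; field_simp; ring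
      rw [h2]
      have h3 : 3 * (n:ℝ) * ε ≤ 1 / (4 * (L + 1)) := by
        rw [hε, hm, mul_one_div, div_le_div_iff₀ (by positivity) (by positivity)]
        nlinarith [mul_nonneg hn hLn]
      have h4 : 2 * (n:ℝ) * θ' * (1 + 8 / κ) ≤ 1 / (4 * (L + 1)) := by
        have h5 : θ' * (1 + 8 / κ) ≤ 9 / (200 * m) := by
          rw [hθ', div_mul_eq_mul_div, div_le_div_iff_of_pos_right (by positivity)]
          have : κ * (1 + 8 / κ) = κ + 8 := by field_simp
          rw [this]; linarith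
        calc 2 * (n:ℝ) * θ' * (1 + 8 / κ) = 2 * n * (θ' * (1 + 8 / κ)) := by ring
          _ ≤ 2 * n * (9 / (200 * m)) := by gcongr
          _ ≤ 1 / (4 * (L + 1)) := by
            rw [hm, ← mul_div_assoc, div_le_div_iff₀ (by positivity) (by positivity)]
            nlinarith [mul_nonneg hn hLn]
      have h6 : η + 3 * n * ε + 2 * n * θ' * (1 + 8 / κ) ≤ 3 / (4 * (L + 1)) := by
        have : (3:ℝ) / (4 * (L + 1)) = 1 / (4 * (L + 1)) + 1 / (4 * (L + 1)) +
          1 / (4 * (L + 1)) := by ring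
        rw [this]
        linarith
      calc (N:ℝ) * (η + 3 * n * ε + 2 * n * θ' * (1 + 8 / κ))
          ≤ L * (3 / (4 * (L + 1))) := by gcongr
        _ < 1 := by
          rw [← mul_div_assoc, div_lt_one (by positivity)]
          linarith)
  refine ⟨z, ?_, fun j => ?_⟩
  · rw [mem_closedBall] at hz
    rw [hr] at hz
    have : 0 < κ * t := by positivity
    linarith
  · obtain ⟨hzb, y, hy, l, hl, hzl⟩ := hzi j
    refine ⟨?_, y, hy, l, ⟨by linarith [hl.1], hl.2⟩, hzl⟩
    by_contra hcon2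
    push Not at hcon2
    exact hzb ⟨⟨hz, y, hy, l, hl, hzl⟩, hcon2.le⟩

end Vale.Agent.P210.H204
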