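import Vale.Agent.P210.R2.H204.SviA

/-!
# Module SVI: the second variation integral inequality along minimal geodesics
-/

open scoped Manifold ContDiff Topology Bundle
open Set Metric Filter Bundle IsManifold MeasureTheory Manifold Asymptotics

set_option maxSynthPendingDepth 3

noncomputable section

namespace Vale.Agent.P210.H204

open Vale.Agent.P210.R2.H53

section

variable {E : Type} [NormedAddCommGroup E] [NormedSpace ℝ E] [FiniteDimensional ℝ E]
  {M : Type} [MetricSpace M] [ChartedSpace E M]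
  [RiemannianBundle (fun x : M => TangentSpace 𝓘(ℝ, E) x)]
  [IsManifold 𝓘(ℝ, E) ∞ M]
  [IsContMDiffRiemannianBundle 𝓘(ℝ, E) ∞ E (fun x : M => TangentSpace 𝓘(ℝ, E) x)]
  [IsRiemannianManifold 𝓘(ℝ, E) M]

omit [IsRiemannianManifold 𝓘(ℝ, E) M] in
theorem localRiem_chartG {e : OpenPartialHomeomorph M E}
    (he : e ∈ maximalAtlas 𝓘(ℝ, E) ∞ M) : LocalRiem (chartG e) e.target :=
  ⟨e.open_target, contDiffOn_chartG he, fun z _ v w => chartG_symm e z v w,
    fun _ hz v hv => chartG_pos he hz v hv⟩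

omit [FiniteDimensional ℝ E] [RiemannianBundle (fun x : M => TangentSpace 𝓘(ℝ, E) x)]
  [IsContMDiffRiemannianBundle 𝓘(ℝ, E) ∞ E (fun x : M => TangentSpace 𝓘(ℝ, E) x)]
  [IsRiemannianManifold 𝓘(ℝ, E) M] in
/-- the derivatives of the two transition maps are inverse to each other -/
theorem fderiv_transition {e e' : OpenPartialHomeomorph M E}
    (he : e ∈ maximalAtlas 𝓘(ℝ, E) ∞ M) (he' : e' ∈ maximalAtlas 𝓘(ℝ, E) ∞ M) {x : M}
    (hx : x ∈ e.source) (hx' : x ∈ e'.source) (v : E) :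
    fderiv ℝ (e ∘ e'.symm) (e' x) (fderiv ℝ (e' ∘ e.symm) (e x) v) = v := by
  have hzV : e x ∈ (e.symm ≫ₕ e').source := by simp [hx, hx']
  have hzV' : e' x ∈ (e'.symm ≫ₕ e).source := by simp [hx, hx']
  have hd : DifferentiableAt ℝ (e' ∘ e.symm) (e x) :=
    ((transition_real he he').contDiffAt
      ((e.symm ≫ₕ e').open_source.mem_nhds hzV)).differentiableAt (by simp)
  have hd' : DifferentiableAt ℝ (e ∘ e'.symm) (e' x) :=
    ((transition_real he' he).contDiffAt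
      ((e'.symm ≫ₕ e).open_source.mem_nhds hzV')).differentiableAt (by simp)
  have hpt : (e' ∘ e.symm) (e x) = e' x := by simp [e.left_inv hx]
  have h1 : (e ∘ e'.symm) ∘ (e' ∘ e.symm) =ᶠ[𝓝 (e x)] id := by
    filter_upwards [(e.symm ≫ₕ e').open_source.mem_nhds hzV] with y hy
    have hy1 : y ∈ e.target := by
      have := hy.1
      simpa using this
    have hy2 : e.symm y ∈ e'.source := by simpa using hy.2
    simp [e'.left_inv hy2, e.right_inv hy1]
  have h2 : HasFDerivAt ((e ∘ e'.symm) ∘ (e' ∘ e.symm))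
      ((fderiv ℝ (e ∘ e'.symm) (e' x)).comp (fderiv ℝ (e' ∘ e.symm) (e x))) (e x) := by
    have h3 : HasFDerivAt (e ∘ e'.symm) (fderiv ℝ (e ∘ e'.symm) (e' x)) ((e' ∘ e.symm) (e x)) := by
      rw [hpt]; exact hd'.hasFDerivAt
    exact h3.comp (e x) hd.hasFDerivAt
  have h4 := (h2.congr_of_eventuallyEq h1.symm).unique (hasFDerivAt_id (e x))
  have h5 := congrArg (fun T => T v) h4
  simpa using h5

omit [FiniteDimensional ℝ E]
  [IsContMDiffRiemannianBundle 𝓘(ℝ, E) ∞ E (fun x : M => TangentSpace 𝓘(ℝ, E) x)]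
  [IsRiemannianManifold 𝓘(ℝ, E) M] in
/-- Change of charts for `SecUB`. -/
theorem SecUB.change (hJ : ∀ e ∈ maximalAtlas 𝓘(ℝ, E) ∞ M, ∀ e' ∈ maximalAtlas 𝓘(ℝ, E) ∞ M,
      ∀ z ∈ e.target, e.symm z ∈ e'.source → ∀ (v : E) (p : ℝ → M), IsJet e z v p →
      IsJet e' (e' (e.symm z)) (fderiv ℝ (e' ∘ e.symm) z v) p)
    {e e' : OpenPartialHomeomorph M E} (he : e ∈ maximalAtlas 𝓘(ℝ, E) ∞ M)
    (he' : e' ∈ maximalAtlas 𝓘(ℝ, E) ∞ M) {x : M} (hx : x ∈ e.source) (hx' : x ∈ e'.source)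
    {q : M} {v : E} {B : ℝ} (h : SecUB q e (e x) v B) :
    SecUB q e' (e' x) (fderiv ℝ (e' ∘ e.symm) (e x) v) B := by
  intro p hp η hη
  have hz' : e' x ∈ e'.target := e'.map_source hx'
  have h1 : e'.symm (e' x) = x := e'.left_inv hx'
  have h2 := hJ e' he' e he (e' x) hz' (by rw [h1]; exact hx) _ p hp
  rw [h1, fderiv_transition he he' hx hx'] at h2
  have h3 := h p h2 η hη
  rw [e.left_inv hx] at h3
  rw [h1]
  exact h3

variable (E) in
/-- There is an orthonormal frame at `c t` with a total second order bound `S`. -/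
def Fr (q : M) (c : ℝ → M) (t x S : ℝ) : Prop :=
  ∃ e ∈ maximalAtlas 𝓘(ℝ, E) ∞ M, c t ∈ e.source ∧
    ∃ b : Module.Basis (Fin (Module.finrank ℝ E)) ℝ E, ON (chartG e (e (c t))) b ∧
      ∃ B : Fin (Module.finrank ℝ E) → ℝ,
        (∀ i, SecUB q e (e (c t)) (x • b i) (B i)) ∧ ∑ i, B i ≤ S

omit [IsRiemannianManifold 𝓘(ℝ, E) M] in
/-- Change of charts for `Fr`. -/
theorem Fr.change (hJ : ∀ e ∈ maximalAtlas 𝓘(ℝ, E) ∞ M, ∀ e' ∈ maximalAtlas 𝓘(ℝ, E) ∞ M,
      ∀ z ∈ e.target, e.symm z ∈ e'.source → ∀ (v : E) (p : ℝ → M), IsJet e z v p →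
      IsJet e' (e' (e.symm z)) (fderiv ℝ (e' ∘ e.symm) z v) p)
    {q : M} {c : ℝ → M} {t x S : ℝ} (h : Fr E q c t x S) {e' : OpenPartialHomeomorph M E}
    (he' : e' ∈ maximalAtlas 𝓘(ℝ, E) ∞ M) (hx' : c t ∈ e'.source) :
    ∃ b : Module.Basis (Fin (Module.finrank ℝ E)) ℝ E, ON (chartG e' (e' (c t))) b ∧
      ∃ B : Fin (Module.finrank ℝ E) → ℝ,
        (∀ i, SecUB q e' (e' (c t)) (x • b i) (B i)) ∧ ∑ i, B i ≤ S := by
  obtain ⟨e, he, hx, b, hb, B, hB, hS⟩ := h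
  have hon : ON (chartG e' (e' (c t))) (fun i => fderiv ℝ (e' ∘ e.symm) (e (c t)) (b i)) := by
    intro i j
    rw [chartG_change he he' hx hx']
    exact hb i j
  obtain ⟨b', hb'⟩ := basis_of_on hon
  refine ⟨b', by rw [hb']; exact hon, B, fun i => ?_, hS⟩
  have h1 := SecUB.change hJ he he' hx hx' (hB i)
  rw [map_smul] at h1
  rw [hb']
  exact h1

/-- Propagation of the total second order bound along a geodesic. -/
theorem Fr.propagate (hJET : Stmt.JET) (hGEO : Stmt.GEO) (hSTEP : Stmt.STEP)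
    {c : ℝ → M} {ℓ : ℝ} (hℓ : 0 < ℓ) (hc : MinGeo c 0 ℓ) {a b α β S : ℝ} (ha : 0 ≤ a)
    (hab : a ≤ b) (hb : b ≤ ℓ) {g : ℝ → ℝ} (hg : ContinuousOn g (Icc a b))
    (H : ∀ t ∈ Ioo a b, ∀ e ∈ maximalAtlas 𝓘(ℝ, E) ∞ M, c t ∈ e.source → ∀ v : E,
      HasDerivAt (fun s => e (c s)) v t → chartG e (e (c t)) v v = 1 →
      ∀ Y : Module.Basis (Fin (Module.finrank ℝ E)) ℝ E, ON (chartG e (e (c t))) Y →
        β ^ 2 * (Module.finrank ℝ E - 1) -
          (α + β * t) ^ 2 * ∑ i, secG (chartG e) (e (c t)) (Y i) v ≤ g t)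
    (h : Fr E (c 0) c a (α + β * a) S) :
    Fr E (c 0) c b (α + β * b) (S + ∫ t in a..b, g t) := by
  have hJ := (hJET E M).1
  have hG2 := (hGEO E M).2.1
  have hgi : ∀ s ∈ Icc a b, ∀ s' ∈ Icc a b, IntervalIntegrable g volume s s' := fun s hs s' hs' =>
    (hg.mono (uIcc_subset_Icc hs hs')).intervalIntegrable
  refine interval_propagate (P := fun t => Fr E (c 0) c t (α + β * t) (S + ∫ r in a..t, g r))
    hab ?_ (by simpa using h)
  intro t ht
  have htℓ : t ∈ Icc 0 ℓ := ⟨ha.trans ht.1, ht.2.trans hb⟩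
  obtain ⟨δ, hδ, w, w', hgeo, hcw⟩ := hG2 c 0 ℓ t hℓ hc htℓ (chartAt E (c t))
    (chart_mem_maximalAtlas (c t)) (mem_chart_source E (c t))
  set e := chartAt E (c t) with he
  have hem : e ∈ maximalAtlas 𝓘(ℝ, E) ∞ M := chart_mem_maximalAtlas (c t)
  refine ⟨δ, hδ, fun s hs s' hs' hst hs't hss hP => ?_⟩
  rcases hss.eq_or_lt with heq | hlt
  · rw [← heq]; exact hP
  have hsℓ : ∀ r ∈ Icc s s', r ∈ Icc 0 ℓ ∧ |r - t| < δ ∧ r ∈ Icc a b := by
    intro r hr
    refine ⟨⟨(ha.trans hs.1).trans hr.1, (hr.2.trans hs'.2).trans hb⟩, ?_,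
      ⟨hs.1.trans hr.1, hr.2.trans hs'.2⟩⟩
    rw [abs_lt] at hst hs't ⊢
    exact ⟨by linarith [hr.1, hst.1], by linarith [hr.2, hs't.2]⟩
  have hmem : s ∈ Icc s s' := ⟨le_rfl, hss⟩
  have hmem' : s' ∈ Icc s s' := ⟨hss, le_rfl⟩
  have hsrc : ∀ r ∈ Icc s s', c r ∈ e.source ∧ e (c r) = w r := fun r hr =>
    hcw r (hsℓ r hr).1 (hsℓ r hr).2.1
  have hG : ∀ r ∈ Icc s s', GeoAt e w w' r := fun r hr => hgeo r (hsℓ r hr).2.1
  have hLR : LocalRiem (chartG e) e.target := localRiem_chartG hem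
  have hwU : ∀ r ∈ Icc s s', w r ∈ e.target := fun r hr => (hG r hr).2.2.1
  have hwc : ContinuousOn w (Icc s s') := fun r hr =>
    (hG r hr).1.continuousAt.continuousWithinAt
  have hw'c : ContinuousOn w' (Icc s s') := fun r hr =>
    (hG r hr).2.1.continuousAt.continuousWithinAt
  obtain ⟨b₀, hb₀, B, hB, hBS⟩ := Fr.change hJ hP hem (hsrc s hmem).1
  rw [(hsrc s hmem).2] at hb₀ hB
  obtain ⟨Y, hYs, hYd, hYon⟩ := exists_frame hLR hlt (fun r hr => (hG r hr).1) hw'c hwU b₀ hb₀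
  -- the fields `X i = (α + β t) Y i`
  set φ : ℝ → ℝ := fun r => α + β * r with hφ
  have hφd : ∀ r, HasDerivAt φ β r := by
    intro r
    have := ((hasDerivAt_id r).const_mul β).const_add α
    simpa [hφ] using this
  have hYc : ∀ i, ContinuousOn (Y i) (Icc s s') := fun i r hr => (hYd i r hr).continuousWithinAt
  have hGc : ContinuousOn (fun r => chartG e (w r)) (Icc s s') :=
    hLR.smooth.continuousOn.comp hwc hwU
  have hΓc : ContinuousOn (fun r => chris (chartG e) (w r)) (Icc s s') :=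
    hLR.contDiffOn_chris.continuousOn.comp hwc hwU
  have hφc : ContinuousOn φ (Icc s s') := fun r _ => (hφd r).continuousAt.continuousWithinAt
  set X : Fin (Module.finrank ℝ E) → ℝ → E := fun i r => φ r • Y i r with hX
  set X' : Fin (Module.finrank ℝ E) → ℝ → E := fun i r =>
    β • Y i r + φ r • (-(chris (chartG e) (w r) (w' r) (Y i r))) with hX'
  have hXd : ∀ i, ∀ r ∈ Icc s s', HasDerivWithinAt (X i) (X' i r) (Icc s s') r := by
    intro i r hr
    have h1 := ((hφd r).hasDerivWithinAt (s := Icc s s')).smul (hYd i r hr)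
    rw [hX']
    simp only
    rw [add_comm]
    exact h1
  have hX'c : ∀ i, ContinuousOn (X' i) (Icc s s') := by
    intro i
    exact (continuousOn_const.smul (hYc i)).add
      (hφc.smul ((hΓc.clm_apply hw'c).clm_apply (hYc i)).neg)
  have hcov : ∀ i, ∀ r, X' i r + chris (chartG e) (w r) (w' r) (X i r) = β • Y i r := by
    intro i r
    simp only [hX', hX, map_smul, smul_neg]
    abel
  have hdist : dist (c 0) (e.symm (w s')) = dist (c 0) (e.symm (w s)) + (s' - s) := by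
    rw [← (hsrc s' hmem').2, ← (hsrc s hmem).2, e.left_inv (hsrc s' hmem').1,
      e.left_inv (hsrc s hmem).1,
      hc 0 ⟨le_rfl, hℓ.le⟩ s' (hsℓ s' hmem').1, hc 0 ⟨le_rfl, hℓ.le⟩ s (hsℓ s hmem).1,
      zero_sub, zero_sub, abs_neg, abs_neg, abs_of_nonneg (hsℓ s' hmem').1.1,
      abs_of_nonneg (hsℓ s hmem).1.1]
    ring
  set Φ : Fin (Module.finrank ℝ E) → ℝ → ℝ := fun i r =>
    β ^ 2 * (1 - chartG e (w r) (w' r) (Y i r) ^ 2) -
      φ r ^ 2 * secG (chartG e) (w r) (Y i r) (w' r) with hΦ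
  have hstep : ∀ i, SecUB (c 0) e (w s') (X i s') (B i + ∫ r in s..s', Φ i r) := by
    intro i
    have h1 := (hSTEP E M e hem (c 0) w w' (X i) (X' i) s s' hlt hG (hXd i) (hX'c i) hdist).1
      (B i) (by rw [hX]; simp only; rw [hYs]; exact hB i)
    convert h1 using 2
    apply intervalIntegral.integral_congr
    intro r hr
    rw [uIcc_of_le hss] at hr
    have h2 := hYon r hr i i
    rw [if_pos rfl] at h2
    simp only [hcov i r, hΦ]
    simp only [map_smul, smul_apply, smul_eq_mul, h2]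
    rw [hX]
    simp only
    rw [secG_smul_left]
    ring
  -- continuity of the integrands
  have hsecc : ∀ i, ContinuousOn (fun r => secG (chartG e) (w r) (Y i r) (w' r)) (Icc s s') := by
    intro i
    have hd2 : ContinuousOn (fun r => fderiv ℝ (fderiv ℝ (chartG e)) (w r)) (Icc s s') :=
      ((hLR.contDiffOn_fderiv).fderiv_of_isOpen hLR.isOpen
        (m := ∞) (by simp)).continuousOn.comp hwc hwU
    have hy := hYc i
    unfold secG
    refine ((((((hd2.clm_apply hy).clm_apply hy).clm_apply hw'c).clm_apply hw'c).add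
      ((((hd2.clm_apply hw'c).clm_apply hw'c).clm_apply hy).clm_apply hy)).sub
      (continuousOn_const.mul
        ((((hd2.clm_apply hw'c).clm_apply hy).clm_apply hy).clm_apply hw'c))).neg.div_const 2
      |>.add ?_ |>.sub ?_
    · exact (hGc.clm_apply ((hΓc.clm_apply hy).clm_apply hw'c)).clm_apply
        ((hΓc.clm_apply hy).clm_apply hw'c)
    · exact (hGc.clm_apply ((hΓc.clm_apply hy).clm_apply hy)).clm_apply
        ((hΓc.clm_apply hw'c).clm_apply hw'c)
  have hΦc : ∀ i, ContinuousOn (Φ i) (Icc s s') := by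
    intro i
    refine (continuousOn_const.mul (continuousOn_const.sub
      (((hGc.clm_apply hw'c).clm_apply (hYc i)).pow 2))).sub ((hφc.pow 2).mul (hsecc i))
  have hΦi : ∀ i, IntervalIntegrable (Φ i) volume s s' := fun i =>
    ContinuousOn.intervalIntegrable (by rw [uIcc_of_le hss]; exact hΦc i)
  have hsum : ∑ i, (B i + ∫ r in s..s', Φ i r) ≤ S + ∫ r in a..s', g r := by
    rw [Finset.sum_add_distrib, ← intervalIntegral.integral_finsetSum (fun i _ => hΦi i)]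
    have h1 : ∫ r in s..s', ∑ i, Φ i r ≤ ∫ r in s..s', g r := by
      apply intervalIntegral.integral_mono_on_of_le_Ioo hss
      · apply ContinuousOn.intervalIntegrable
        rw [uIcc_of_le hss]
        exact continuousOn_finsetSum _ (fun i _ => hΦc i)
      · exact hgi s hs s' hs'
      intro r hr
      have hrI : r ∈ Icc s s' := ⟨hr.1.le, hr.2.le⟩
      have hrab : r ∈ Ioo a b := ⟨hs.1.trans_lt hr.1, hr.2.trans_le hs'.2⟩
      obtain ⟨Yb, hYb⟩ := basis_of_on (hYon r hrI)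
      have hder : HasDerivAt (fun s => e (c s)) (w' r) r := by
        refine (hG r hrI).1.congr_of_eventuallyEq ?_
        filter_upwards [Ioo_mem_nhds hr.1 hr.2] with y hy
        exact (hsrc y ⟨hy.1.le, hy.2.le⟩).2
      have h2 := H r hrab e hem (hsrc r hrI).1 (w' r) hder
        (by rw [(hsrc r hrI).2]; exact (hG r hrI).2.2.2) Yb
        (by rw [(hsrc r hrI).2, hYb]; exact hYon r hrI)
      rw [(hsrc r hrI).2, hYb] at h2
      refine le_trans (le_of_eq ?_) h2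
      have h3 := parseval Yb (by rw [hYb]; exact hYon r hrI) (w' r)
      rw [hYb, (hG r hrI).2.2.2] at h3
      simp only [hΦ]
      rw [Finset.sum_sub_distrib, ← Finset.mul_sum, ← Finset.mul_sum, Finset.sum_sub_distrib, h3]
      simp [hφ]
    have h4 : ∫ r in a..s', g r = (∫ r in a..s, g r) + ∫ r in s..s', g r :=
      (intervalIntegral.integral_add_adjacent_intervals
        (hgi a ⟨le_rfl, hab⟩ s hs) (hgi s hs s' hs')).symm
    rw [h4]
    linarith
  obtain ⟨Yb, hYb⟩ := basis_of_on (hYon s' hmem')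
  refine ⟨e, hem, (hsrc s' hmem').1, Yb, ?_, _, fun i => ?_, hsum⟩
  · rw [(hsrc s' hmem').2, hYb]; exact hYon s' hmem'
  · rw [(hsrc s' hmem').2, hYb]
    exact hstep i

/-- Start of the propagation: the zero field. -/
theorem Fr.start (hJET : Stmt.JET) (q : M) (c : ℝ → M) (t : ℝ) : Fr E q c t 0 0 := by
  set e := chartAt E (c t) with he
  have hem : e ∈ maximalAtlas 𝓘(ℝ, E) ∞ M := chart_mem_maximalAtlas (c t)
  have hx : c t ∈ e.source := mem_chart_source E (c t)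
  have hz : e (c t) ∈ e.target := e.map_source hx
  obtain ⟨b, hb⟩ := exists_on_basis (g := chartG e (e (c t))) (chartG_symm e _)
    (fun v hv => chartG_pos hem hz v hv)
  refine ⟨e, hem, hx, b, hb, fun _ => 0, fun i => ?_, by simp⟩
  rw [zero_smul]
  intro p hp η hη
  have hconst : IsJet e (e (c t)) 0 (fun _ : ℝ => c t) := by
    refine ⟨continuousAt_const, (e.left_inv hx).symm, ?_⟩
    simp
  have h1 := (hJET E M).2.1 e hem (e (c t)) hz 0 p (fun _ => c t) hp hconst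
  rw [e.left_inv hx]
  have h2 := h1.def (show (0:ℝ) < η / 2 by positivity)
  have h3 : ∀ᶠ r in 𝓝 (0:ℝ), ‖dist (p (-r)) (c t)‖ ≤ η / 2 * ‖(-r) ^ 2‖ := by
    have : Tendsto (fun r : ℝ => -r) (𝓝 0) (𝓝 0) := by
      have := (continuous_neg (G := ℝ)).tendsto 0
      simpa using this
    exact this.eventually h2
  filter_upwards [nhdsWithin_le_nhds h2, nhdsWithin_le_nhds h3] with r hr hr'
  have e1 := dist_triangle q (c t) (p r)
  have e2 := dist_triangle q (c t) (p (-r))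
  rw [Real.norm_of_nonneg dist_nonneg, Real.norm_of_nonneg (by positivity),
    dist_comm] at hr hr'
  rw [neg_sq] at hr'
  linarith

omit [FiniteDimensional ℝ E] [IsManifold 𝓘(ℝ, E) ∞ M]
  [IsContMDiffRiemannianBundle 𝓘(ℝ, E) ∞ E (fun x : M => TangentSpace 𝓘(ℝ, E) x)]
  [IsRiemannianManifold 𝓘(ℝ, E) M] in
/-- a constant curve is a jet: second order bounds for the zero vector are nonnegative -/
theorem SecUB.nonneg {q : M} {e : OpenPartialHomeomorph M E} {x : M} (hx : x ∈ e.source) {B : ℝ}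
    (h : SecUB q e (e x) 0 B) : 0 ≤ B := by
  have hconst : IsJet e (e x) 0 (fun _ : ℝ => x) := by
    refine ⟨continuousAt_const, (e.left_inv hx).symm, ?_⟩
    simp
  refine le_of_forall_pos_le_add fun η hη => ?_
  have h1 := h _ hconst η hη
  rw [e.left_inv hx] at h1
  obtain ⟨r, hr, hr0⟩ := (h1.and self_mem_nhdsWithin).exists
  have h2 : 0 ≤ r ^ 2 * (B + η) := by linarith
  have h3 : 0 < r ^ 2 := by positivity
  exact nonneg_of_mul_nonneg_right h2 h3

omit [FiniteDimensional ℝ E] [IsManifold 𝓘(ℝ, E) ∞ M] [IsContMDiffRiemannianBundle 𝓘(ℝ, E) ∞ E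
    (fun x : M => TangentSpace 𝓘(ℝ, E) x)] [IsRiemannianManifold 𝓘(ℝ, E) M] in
/-- End of the propagation. -/
theorem Fr.nonneg {q : M} {c : ℝ → M} {t S : ℝ} (h : Fr E q c t 0 S) : 0 ≤ S := by
  obtain ⟨e, he, hx, b, hb, B, hB, hS⟩ := h
  refine le_trans (Finset.sum_nonneg fun i _ => ?_) hS
  have := hB i
  rw [zero_smul] at this
  exact SecUB.nonneg hx this

omit [IsRiemannianManifold 𝓘(ℝ, E) M] in
/-- lower bound of the Ricci curvature -/
theorem sum_secG_ge {κ : ℝ} (hK : SecGE E M (-κ ^ 2)) {e : OpenPartialHomeomorph M E}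
    (he : e ∈ maximalAtlas 𝓘(ℝ, E) ∞ M) {z : E} (hz : z ∈ e.target) {v : E}
    (hv : chartG e z v v = 1) (Y : Module.Basis (Fin (Module.finrank ℝ E)) ℝ E)
    (hY : ON (chartG e z) Y) :
    -((Module.finrank ℝ E - 1) * κ ^ 2) ≤ ∑ i, secG (chartG e) z (Y i) v := by
  obtain ⟨Γ, hΓ, hΓ'⟩ := hK e he z hz
  have h1 : ∀ i, -κ ^ 2 * (1 - chartG e z v (Y i) ^ 2) ≤ secG (chartG e) z (Y i) v := by
    intro i
    have := hΓ' (Y i) v
    rw [sectNum_eq he hz hΓ, ← chartG_apply, ← chartG_apply, ← chartG_apply, hv,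
      chartG_symm e z (Y i) v] at this
    have h2 := hY i i
    rw [if_pos rfl] at h2
    rw [h2, one_mul] at this
    exact this
  have h2 := Finset.sum_le_sum (fun i (_ : i ∈ Finset.univ) => h1 i)
  refine le_trans (le_of_eq ?_) h2
  rw [← Finset.mul_sum, Finset.sum_sub_distrib, parseval Y hY v, hv]
  simp
  ring

end

theorem svi_holds (hSTEP : Stmt.STEP) (hGEO : Stmt.GEO) (hJET : Stmt.JET) : Stmt.SVI := by
  intro E _ _ _ M _ _ _ _ _ _ κ hκ hK c ℓ θ F hℓ hθ hθ8 hc hF hFeq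
  set n : ℝ := (Module.finrank ℝ E : ℝ) with hn
  have hn1 : 1 ≤ n := by
    -- a minimal geodesic of positive length exists, so the dimension is positive
    rw [hn]
    by_contra hcon
    push Not at hcon
    have h0 : Module.finrank ℝ E = 0 := by
      by_contra h1
      have : (1:ℝ) ≤ Module.finrank ℝ E := by
        exact_mod_cast Nat.one_le_iff_ne_zero.2 h1
      linarith
    have hsub : Subsingleton E := Module.finrank_zero_iff.1 h0
    obtain ⟨δ, hδ, w, w', hgeo, -⟩ := (hGEO E M).2.1 c 0 ℓ 0 hℓ hc ⟨le_rfl, hℓ.le⟩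
      (chartAt E (c 0)) (chart_mem_maximalAtlas (c 0)) (mem_chart_source E (c 0))
    have h1 := (hgeo 0 (by simpa using hδ)).2.2.2
    rw [Subsingleton.elim (w' 0) 0] at h1
    simp at h1
  have hθℓ : 0 < θ * ℓ := by positivity
  -- the three pieces
  set a₀ : ℝ := (1 - 5 * θ) * ℓ with ha₀
  set a₁ : ℝ := (1 - 4 * θ) * ℓ with ha₁
  set a₂ : ℝ := (1 - θ) * ℓ with ha₂
  have h0 : 0 < a₀ := by
    have : 0 < 1 - 5 * θ := by linarith
    positivity
  have h01 : a₁ - a₀ = θ * ℓ := by rw [ha₀, ha₁]; ring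
  have h12 : a₂ - a₁ = 3 * (θ * ℓ) := by rw [ha₂, ha₁]; ring
  have h23 : ℓ - a₂ = θ * ℓ := by rw [ha₂]; ring
  set C : ℝ := ((θ * ℓ)⁻¹ ^ 2 + κ ^ 2) * (n - 1) with hC
  have hvv : ∀ t ∈ Ioo 0 ℓ, ∀ e ∈ maximalAtlas 𝓘(ℝ, E) ∞ M, c t ∈ e.source → ∀ v : E,
      HasDerivAt (fun s => e (c s)) v t → chartG e (e (c t)) v v = 1 →
      ∀ Y : Module.Basis (Fin (Module.finrank ℝ E)) ℝ E, ON (chartG e (e (c t))) Y →
        ∀ x : ℝ, x ^ 2 ≤ 1 → (θ * ℓ)⁻¹ ^ 2 * (n - 1) -
          x ^ 2 * ∑ i, secG (chartG e) (e (c t)) (Y i) v ≤ C := by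
    intro t ht e he hct v hv hv1 Y hY x hx
    have h1 := sum_secG_ge hK he (e.map_source hct) hv1 Y hY
    have h2 : 0 ≤ x ^ 2 := sq_nonneg x
    have h3 : 0 ≤ (n - 1) * κ ^ 2 := mul_nonneg (by linarith) (sq_nonneg κ)
    rw [hC]
    nlinarith
  have s0 : Fr E (c 0) c a₀ 0 0 := Fr.start hJET _ _ _
  have s1 : Fr E (c 0) c a₁ 1 (0 + ∫ t in a₀..a₁, C) := by
    have := Fr.propagate hJET hGEO hSTEP hℓ hc (a := a₀) (b := a₁) (α := -(a₀ * (θ * ℓ)⁻¹))
      (β := (θ * ℓ)⁻¹) (S := 0) h0.le (by linarith) (by linarith) (g := fun _ => C)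
      continuousOn_const (by
        intro t ht e he hct v hv hv1 Y hY
        refine hvv t ⟨h0.trans ht.1, by linarith [ht.2]⟩ e he hct v hv hv1 Y hY _ ?_
        have h2 : -(a₀ * (θ * ℓ)⁻¹) + (θ * ℓ)⁻¹ * t = (t - a₀) / (θ * ℓ) := by
          field_simp; ring
        rw [h2]
        have h3 : 0 ≤ (t - a₀) / (θ * ℓ) := div_nonneg (by linarith [ht.1]) hθℓ.le
        have h4 : (t - a₀) / (θ * ℓ) ≤ 1 := by
          rw [div_le_one hθℓ]; linarith [ht.2]
        nlinarith) (by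
        have : -(a₀ * (θ * ℓ)⁻¹) + (θ * ℓ)⁻¹ * a₀ = 0 := by ring
        rw [this]; exact s0)
    have h2 : -(a₀ * (θ * ℓ)⁻¹) + (θ * ℓ)⁻¹ * a₁ = 1 := by
      have : -(a₀ * (θ * ℓ)⁻¹) + (θ * ℓ)⁻¹ * a₁ = (a₁ - a₀) * (θ * ℓ)⁻¹ := by ring
      rw [this, h01, mul_inv_cancel₀ hθℓ.ne']
    rw [h2] at this
    exact this
  have hFc : ContinuousOn F (Icc a₁ a₂) :=
    hF.mono (fun t ht => ⟨by linarith [ht.1], by linarith [ht.2]⟩)
  have s2 : Fr E (c 0) c a₂ 1 ((0 + ∫ t in a₀..a₁, C) + ∫ t in a₁..a₂, -F t) := by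
    have := Fr.propagate hJET hGEO hSTEP hℓ hc (a := a₁) (b := a₂) (α := 1)
      (β := 0) (S := 0 + ∫ t in a₀..a₁, C) (by linarith) (by linarith) (by linarith)
      (g := fun t => -F t) hFc.neg (by
        intro t ht e he hct v hv hv1 Y hY
        have h3 := hFeq t ⟨by linarith [ht.1], by linarith [ht.2]⟩ e he hct v hv Y hY
        rw [h3]
        simp) (by simpa using s1)
    simpa using this
  have s3 : Fr E (c 0) c ℓ 0 (((0 + ∫ t in a₀..a₁, C) + ∫ t in a₁..a₂, -F t) +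
      ∫ t in a₂..ℓ, C) := by
    have := Fr.propagate hJET hGEO hSTEP hℓ hc (a := a₂) (b := ℓ) (α := ℓ * (θ * ℓ)⁻¹)
      (β := -(θ * ℓ)⁻¹) (S := (0 + ∫ t in a₀..a₁, C) + ∫ t in a₁..a₂, -F t) (by linarith)
      (by linarith) le_rfl (g := fun _ => C)
      continuousOn_const (by
        intro t ht e he hct v hv hv1 Y hY
        rw [neg_sq]
        refine hvv t ⟨by linarith [ht.1], ht.2⟩ e he hct v hv hv1 Y hY _ ?_
        have h2 : ℓ * (θ * ℓ)⁻¹ + -(θ * ℓ)⁻¹ * t = (ℓ - t) / (θ * ℓ) := by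
          field_simp; ring
        rw [h2]
        have h3 : 0 ≤ (ℓ - t) / (θ * ℓ) := div_nonneg (by linarith [ht.2]) hθℓ.le
        have h4 : (ℓ - t) / (θ * ℓ) ≤ 1 := by
          rw [div_le_one hθℓ]; linarith [ht.1]
        nlinarith) (by
        have : ℓ * (θ * ℓ)⁻¹ + -(θ * ℓ)⁻¹ * a₂ = 1 := by
          have : ℓ * (θ * ℓ)⁻¹ + -(θ * ℓ)⁻¹ * a₂ = (ℓ - a₂) * (θ * ℓ)⁻¹ := by ring
          rw [this, h23, mul_inv_cancel₀ hθℓ.ne']
        rw [this]; exact s2)
    have h2 : ℓ * (θ * ℓ)⁻¹ + -(θ * ℓ)⁻¹ * ℓ = 0 := by ring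
    rw [h2] at this
    exact this
  have h4 := s3.nonneg
  simp only [intervalIntegral.integral_const, intervalIntegral.integral_neg, smul_eq_mul, h01, h23,
    zero_add] at h4
  have h5 : ∫ s in Icc a₁ a₂, (F s + (n - 1) * κ ^ 2) = (∫ s in a₁..a₂, F s) +
      3 * (θ * ℓ) * ((n - 1) * κ ^ 2) := by
    rw [integral_Icc_eq_integral_Ioc, ← intervalIntegral.integral_of_le (by linarith),
      intervalIntegral.integral_add
        (ContinuousOn.intervalIntegrable (by rw [uIcc_of_le (by linarith)]; exact hFc))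
        intervalIntegrable_const, intervalIntegral.integral_const, h12, smul_eq_mul]
  rw [h5]
  have h6 : θ * ℓ * C = (n - 1) / (θ * ℓ) + θ * ℓ * ((n - 1) * κ ^ 2) := by
    rw [hC]; field_simp
  rw [h6] at h4
  have h7 : 2 * n / (θ * ℓ) = 2 * ((n - 1) / (θ * ℓ)) + 2 / (θ * ℓ) := by
    field_simp; ring
  have h8 : 0 < 2 / (θ * ℓ) := by positivity
  have h9 : 0 ≤ κ ^ 2 * (θ * ℓ) := by positivity
  rw [h7]
  nlinarith

end Vale.Agent.P210.H204
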