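import Vale.Agent.P210.R2.H53.SpecR
import Mathlib.Analysis.ODE.ExistUnique
import Mathlib.LinearAlgebra.QuadraticForm.Basic

/-!
# Second variation along minimal geodesics: algebraic and ODE preliminaries
-/

open scoped ContDiff Topology NNReal
open Set Metric Filter

set_option maxSynthPendingDepth 3

noncomputable section

namespace Vale.Agent.P210.H204

open Vale.Agent.P210.R2.H53

section glue

variable {F : Type*} [NormedAddCommGroup F] [NormedSpace ℝ F]

lemma hasDerivWithinAt_of_notMem_closure' {f : ℝ → F} {f' : F} {s : Set ℝ} {x : ℝ}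
    (h : x ∉ closure s) : HasDerivWithinAt f f' s x :=
  HasFDerivWithinAt.of_notMem_closure h

/-- gluing two solutions of an ODE. -/
lemma glue_sol {v : ℝ → F → F} {a c d : ℝ} (hac : a ≤ c) (hcd : c ≤ d) {y₁ y₂ : ℝ → F}
    (h₁ : ∀ t ∈ Icc a c, HasDerivWithinAt y₁ (v t (y₁ t)) (Icc a c) t)
    (h₂ : ∀ t ∈ Icc c d, HasDerivWithinAt y₂ (v t (y₂ t)) (Icc c d) t)
    (h12 : y₂ c = y₁ c) :
    ∃ y : ℝ → F, y a = y₁ a ∧ (∀ t ∈ Icc a c, y t = y₁ t) ∧ (∀ t ∈ Icc c d, y t = y₂ t) ∧
      ∀ t ∈ Icc a d, HasDerivWithinAt y (v t (y t)) (Icc a d) t := by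
  classical
  set y : ℝ → F := fun t => if t ≤ c then y₁ t else y₂ t with hy
  have e1 : ∀ t ∈ Icc a c, y t = y₁ t := fun t ht => by simp [hy, ht.2]
  have e2 : ∀ t ∈ Icc c d, y t = y₂ t := by
    intro t ht
    by_cases h : t ≤ c
    · have : t = c := le_antisymm h ht.1
      subst this
      simp [hy, h12]
    · simp [hy, h]
  refine ⟨y, e1 a ⟨le_rfl, hac⟩, e1, e2, fun t ht => ?_⟩
  have hu : Icc a d = Icc a c ∪ Icc c d := (Icc_union_Icc_eq_Icc hac hcd).symm
  rw [hu]
  refine HasDerivWithinAt.union ?_ ?_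
  · by_cases h : t ∈ Icc a c
    · rw [e1 t h]
      exact (h₁ t h).congr e1 (e1 t h)
    · exact hasDerivWithinAt_of_notMem_closure' (by rwa [isClosed_Icc.closure_eq])
  · by_cases h : t ∈ Icc c d
    · rw [e2 t h]
      exact (h₂ t h).congr e2 (e2 t h)
    · exact hasDerivWithinAt_of_notMem_closure' (by rwa [isClosed_Icc.closure_eq])

end glue

/-- Linear (nonautonomous) ODEs: short time. -/
lemma exists_linODE_short {F : Type*} [NormedAddCommGroup F] [NormedSpace ℝ F] [CompleteSpace F]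
    {c d M : ℝ} (hcd : c ≤ d) (L : ℝ → F →L[ℝ] F) (hL : ContinuousOn L (Icc c d)) (hM : 0 < M)
    (hLM : ∀ t ∈ Icc c d, ‖L t‖ ≤ M) (hd : d - c ≤ 1 / (2 * M)) (x : F) :
    ∃ y : ℝ → F, y c = x ∧ ∀ t ∈ Icc c d, HasDerivWithinAt y (L t (y t)) (Icc c d) t := by
  obtain ⟨M', hM'⟩ : ∃ M' : ℝ≥0, (M' : ℝ) = M := ⟨M.toNNReal, Real.coe_toNNReal M hM.le⟩
  subst hM'
  set A : ℝ≥0 := ‖x‖₊ + 1 with hA
  set B : ℝ≥0 := M' * (‖x‖₊ + A) with hB
  have hpl : IsPicardLindelof (fun t y => L t y) (tmin := c) (tmax := d)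
      ⟨c, ⟨le_rfl, hcd⟩⟩ x A 0 B M' := by
    refine ⟨fun t ht => ?_, fun y _ => ?_, fun t ht y hy => ?_, ?_⟩
    · refine LipschitzWith.lipschitzOnWith ?_
      refine LipschitzWith.of_dist_le_mul fun y z => ?_
      rw [dist_eq_norm, dist_eq_norm, ← map_sub]
      exact (L t).le_of_opNorm_le (hLM t ht) _
    · exact hL.clm_apply continuousOn_const
    · have h1 : ‖y‖ ≤ ‖x‖ + A := by
        have : ‖y - x‖ ≤ A := by rwa [mem_closedBall, dist_eq_norm] at hy
        calc ‖y‖ = ‖x + (y - x)‖ := by congr 1; abel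
          _ ≤ ‖x‖ + ‖y - x‖ := norm_add_le _ _
          _ ≤ _ := by gcongr
      calc ‖L t y‖ ≤ M' * ‖y‖ := (L t).le_of_opNorm_le (hLM t ht) _
        _ ≤ M' * (‖x‖ + A) := by gcongr
        _ = B := by rw [hB, NNReal.coe_mul, NNReal.coe_add]; rfl
    · have h1 : max (d - c) (c - c) = d - c := by
        rw [sub_self]; exact max_eq_left (by linarith only [hcd])
      simp only [h1]
      have h2 : (B : ℝ) = M' * (2 * ‖x‖ + 1) := by
        rw [hB, NNReal.coe_mul, NNReal.coe_add, hA, NNReal.coe_add, coe_nnnorm,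
          NNReal.coe_one]
        ring
      rw [h2]
      have h3 : M' * (2 * ‖x‖ + 1) * (d - c) ≤ M' * (2 * ‖x‖ + 1) * (1 / (2 * M')) := by
        gcongr
      have h4 : (M' : ℝ) * (2 * ‖x‖ + 1) * (1 / (2 * M')) = ‖x‖ + 1/2 := by field_simp
      simp [hA]
      linarith only [h3, h4]
  exact hpl.exists_eq_forall_mem_Icc_hasDerivWithinAt₀

/-- Linear (nonautonomous) ODEs have solutions on the whole interval. -/
theorem exists_linODE {F : Type*} [NormedAddCommGroup F] [NormedSpace ℝ F] [CompleteSpace F]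
    {a b : ℝ} (hab : a ≤ b) (L : ℝ → F →L[ℝ] F) (hL : ContinuousOn L (Icc a b)) (x : F) :
    ∃ y : ℝ → F, y a = x ∧ ∀ t ∈ Icc a b, HasDerivWithinAt y (L t (y t)) (Icc a b) t := by
  obtain ⟨C, hC⟩ : ∃ C, ∀ t ∈ Icc a b, ‖L t‖ ≤ C := isCompact_Icc.exists_bound_of_continuousOn hL
  set M : ℝ := |C| + 1 with hM
  have hMpos : 0 < M := by positivity
  have hLM : ∀ t ∈ Icc a b, ‖L t‖ ≤ M := fun t ht =>
    (hC t ht).trans ((le_abs_self C).trans (by rw [hM]; linarith))
  set δ : ℝ := 1 / (2 * M) with hδ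
  have hδpos : 0 < δ := by positivity
  have key : ∀ k : ℕ, ∀ d ∈ Icc a b, d - a ≤ k * δ →
      ∃ y : ℝ → F, y a = x ∧ ∀ t ∈ Icc a d, HasDerivWithinAt y (L t (y t)) (Icc a d) t := by
    intro k
    induction k with
    | zero =>
      intro d hd hk
      have : d = a := by
        simp at hk
        linarith only [hd, hk, hd.1]
      subst this
      refine ⟨fun _ => x, rfl, fun t ht => ?_⟩
      simp only [Icc_self, mem_singleton_iff] at ht
      subst ht
      simp only [Icc_self]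
      exact HasFDerivWithinAt.of_subsingleton (by simp)
    | succ k ih =>
      intro d hd hk
      set c := max a (d - δ) with hc
      have hac : a ≤ c := le_max_left _ _
      have hcd : c ≤ d := max_le hd.1 (by linarith only [hδpos])
      have hcb : c ≤ b := hcd.trans hd.2
      have hck : c - a ≤ k * δ := by
        push_cast at hk
        rw [hc]
        rcases le_total a (d - δ) with h | h
        · rw [max_eq_right h]; linarith only [hk]
        · rw [max_eq_left h]; simp; positivity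
      obtain ⟨y₁, hy₁, hy₁'⟩ := ih c ⟨hac, hcb⟩ hck
      obtain ⟨y₂, hy₂, hy₂'⟩ := exists_linODE_short hcd L
        (hL.mono (Icc_subset_Icc hac hd.2)) hMpos
        (fun t ht => hLM t ⟨hac.trans ht.1, ht.2.trans hd.2⟩)
        (by
          have : d - δ ≤ c := le_max_right _ _
          linarith only [this]) (y₁ c)
      obtain ⟨y, hya, -, -, hy⟩ := glue_sol (v := fun t z => L t z) hac hcd hy₁' hy₂' hy₂
      exact ⟨y, by rw [hya, hy₁], hy⟩
  obtain ⟨k, hk⟩ := exists_nat_ge ((b - a) / δ)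
  refine key k b ⟨hab, le_rfl⟩ ?_
  rwa [div_le_iff₀ hδpos] at hk

/-- a local monotonicity property on a compact interval is global -/
theorem interval_propagate {P : ℝ → Prop} {a b : ℝ} (hab : a ≤ b)
    (h : ∀ t ∈ Icc a b, ∃ ε > 0, ∀ s ∈ Icc a b, ∀ s' ∈ Icc a b, |s - t| < ε → |s' - t| < ε →
      s ≤ s' → P s → P s') (ha : P a) : P b := by
  choose! ε hε hP using h
  obtain ⟨δ, hδ, hleb⟩ := lebesgue_number_lemma_of_metric (s := Icc a b)
    (c := fun t : Icc a b => ball (t : ℝ) (ε t)) isCompact_Icc (fun t => isOpen_ball)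
    (fun t ht => mem_iUnion.2 ⟨⟨t, ht⟩, mem_ball_self (hε t ht)⟩)
  obtain ⟨N, hN⟩ := exists_nat_gt ((b - a) / δ)
  have hN0 : (0:ℝ) < N := by
    have : 0 ≤ (b - a) / δ := div_nonneg (by linarith only [hab]) hδ.le
    linarith only [hN, this]
  have hstep : (b - a) / N < δ := by
    rw [div_lt_iff₀ hδ] at hN
    rw [div_lt_iff₀ hN0]
    linarith only [hN]
  have hstep0 : 0 ≤ (b - a) / N := div_nonneg (by linarith only [hab]) hN0.le
  have hmem : ∀ k : ℕ, k ≤ N → a + k * ((b - a) / N) ∈ Icc a b := by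
    intro k hk
    have hk' : (k:ℝ) ≤ N := by exact_mod_cast hk
    constructor
    · have : 0 ≤ (k:ℝ) * ((b - a) / N) := by positivity
      linarith only [this]
    · have : (k:ℝ) * ((b - a) / N) ≤ N * ((b - a) / N) := by gcongr
      have h2 : (N:ℝ) * ((b - a) / N) = b - a := by field_simp
      linarith only [this, h2]
  have key : ∀ k : ℕ, k ≤ N → P (a + k * ((b - a) / N)) := by
    intro k
    induction k with
    | zero => intro _; simpa using ha
    | succ k ih =>
      intro hk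
      have h1 := ih (Nat.le_of_succ_le hk)
      have m1 := hmem k (Nat.le_of_succ_le hk)
      have m2 := hmem (k+1) hk
      obtain ⟨t, ht⟩ := hleb _ m1
      have b1 : a + k * ((b - a) / N) ∈ ball (t:ℝ) (ε t) := ht (mem_ball_self hδ)
      have b2 : a + (k + 1 : ℕ) * ((b - a) / N) ∈ ball (t:ℝ) (ε t) := by
        apply ht
        rw [mem_ball, Real.dist_eq]
        have : a + ((k + 1 : ℕ) : ℝ) * ((b - a) / N) - (a + k * ((b - a) / N)) = (b - a) / N := by
          push_cast; ring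
        rw [this, abs_of_nonneg hstep0]
        exact hstep
      rw [mem_ball, Real.dist_eq] at b1 b2
      refine hP t t.2 _ m1 _ m2 b1 b2 ?_ h1
      push_cast
      nlinarith only [hstep0]
  have := key N le_rfl
  have h2 : (N:ℝ) * ((b - a) / N) = b - a := by field_simp
  rw [h2] at this
  simpa using this

section Alg

variable {E : Type*} [NormedAddCommGroup E] [NormedSpace ℝ E]

/-- orthonormal families for a bilinear form -/
def ON (g : E →L[ℝ] E →L[ℝ] ℝ) {ι : Type*} [DecidableEq ι] (b : ι → E) : Prop :=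
  ∀ i j, g (b i) (b j) = if i = j then 1 else 0

theorem parseval {g : E →L[ℝ] E →L[ℝ] ℝ} {n : ℕ} (b : Module.Basis (Fin n) ℝ E) (h : ON g b)
    (v : E) : ∑ i, g v (b i) ^ 2 = g v v := by
  have h1 : ∀ j, g v (b j) = b.repr v j := by
    intro j
    conv_lhs => rw [← b.sum_repr v]
    rw [map_sum, sum_apply]
    simp only [map_smul, smul_apply, smul_eq_mul, h _ j]
    simp
  have h2 : g v v = ∑ j, b.repr v j * g v (b j) := by
    conv_lhs => rw [← b.sum_repr v]
    rw [map_sum]
    simp only [map_smul, smul_eq_mul]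
    congr 1
    ext j
    rw [b.sum_repr v]
  rw [h2]
  congr 1
  ext j
  rw [h1 j]; ring

theorem linearIndependent_of_on {g : E →L[ℝ] E →L[ℝ] ℝ} {n : ℕ} {b : Fin n → E} (h : ON g b) :
    LinearIndependent ℝ b := by
  rw [Fintype.linearIndependent_iff]
  intro a ha j
  have h1 : g (∑ i, a i • b i) (b j) = a j := by
    rw [map_sum, sum_apply]
    simp only [map_smul, smul_apply, smul_eq_mul, h _ j]
    simp
  rw [ha] at h1
  simpa using h1.symm

variable [FiniteDimensional ℝ E]

theorem basis_of_on {g : E →L[ℝ] E →L[ℝ] ℝ} {b : Fin (Module.finrank ℝ E) → E} (h : ON g b) :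
    ∃ b' : Module.Basis (Fin (Module.finrank ℝ E)) ℝ E, ⇑b' = b := by
  rcases Nat.eq_zero_or_pos (Module.finrank ℝ E) with h0 | h0
  · have : IsEmpty (Fin (Module.finrank ℝ E)) := by rw [h0]; infer_instance
    exact ⟨Module.finBasis ℝ E, by ext i; exact this.elim i⟩
  · have : Nonempty (Fin (Module.finrank ℝ E)) := ⟨⟨0, h0⟩⟩
    exact ⟨basisOfLinearIndependentOfCardEqFinrank (linearIndependent_of_on h) (by simp), by simp⟩

theorem exists_on_basis {g : E →L[ℝ] E →L[ℝ] ℝ} (hs : ∀ v w, g v w = g w v)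
    (hp : ∀ v, v ≠ 0 → 0 < g v v) :
    ∃ b : Module.Basis (Fin (Module.finrank ℝ E)) ℝ E, ON g b := by
  let B : LinearMap.BilinForm ℝ E := LinearMap.mk₂ ℝ (fun v w => g v w)
    (by intros; simp) (by intros; simp) (by intros; simp) (by intros; simp)
  have hB : LinearMap.IsSymm B := ⟨fun v w => by simp [B, hs v w]⟩
  obtain ⟨b, hb⟩ := LinearMap.BilinForm.exists_orthogonal_basis (B := B) hB
  have hpos : ∀ i, 0 < g (b i) (b i) := fun i => hp _ (b.ne_zero i)
  have hu : ∀ i, IsUnit ((√(g (b i) (b i)))⁻¹) := fun i =>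
    (inv_ne_zero (Real.sqrt_pos.2 (hpos i)).ne').isUnit
  refine ⟨b.isUnitSMul hu, fun i j => ?_⟩
  rw [Module.Basis.isUnitSMul_apply, Module.Basis.isUnitSMul_apply]
  simp only [map_smul, smul_apply, smul_eq_mul]
  by_cases hij : i = j
  · subst hij
    rw [if_pos rfl]
    have h1 := Real.mul_self_sqrt (hpos i).le
    have h2 := (Real.sqrt_pos.2 (hpos i)).ne'
    field_simp
    rw [sq]; exact h1.symm
  · rw [if_neg hij]
    have h1 : B (b i) (b j) = 0 := hb hij
    have h2 : g (b i) (b j) = 0 := h1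
    rw [h2]; simp

omit [FiniteDimensional ℝ E] in
theorem secG_smul_left (G : E → E →L[ℝ] E →L[ℝ] ℝ) (z a b : E) (s : ℝ) :
    secG G z (s • a) b = s ^ 2 * secG G z a b := by
  simp only [secG, map_smul, smul_apply, smul_eq_mul]
  ring

/-- Parallel orthonormal frames along a curve in a chart. -/
theorem exists_frame {G : E → E →L[ℝ] E →L[ℝ] ℝ} {U : Set E} (h : LocalRiem G U)
    {w w' : ℝ → E} {s s' : ℝ} (hss : s < s') (hw : ∀ t ∈ Icc s s', HasDerivAt w (w' t) t)
    (hw' : ContinuousOn w' (Icc s s')) (hU : ∀ t ∈ Icc s s', w t ∈ U)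
    {n : ℕ} (b : Fin n → E) (hb : ON (G (w s)) b) :
    ∃ Y : Fin n → ℝ → E, (∀ i, Y i s = b i) ∧
      (∀ i, ∀ t ∈ Icc s s', HasDerivWithinAt (Y i) (-(chris G (w t) (w' t) (Y i t))) (Icc s s') t) ∧
      ∀ t ∈ Icc s s', ON (G (w t)) (fun i => Y i t) := by
  have : CompleteSpace E := FiniteDimensional.complete ℝ E
  have hwc : ContinuousOn w (Icc s s') := fun t ht => (hw t ht).continuousAt.continuousWithinAt
  have hL : ContinuousOn (fun t => -(chris G (w t) (w' t))) (Icc s s') :=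
    ((h.contDiffOn_chris.continuousOn.comp hwc hU).clm_apply hw').neg
  have hY : ∀ i, ∃ y : ℝ → E, y s = b i ∧ ∀ t ∈ Icc s s',
      HasDerivWithinAt y ((-(chris G (w t) (w' t))) (y t)) (Icc s s') t := fun i =>
    exists_linODE hss.le _ hL (b i)
  choose Y hYs hYd using hY
  refine ⟨Y, hYs, fun i t ht => by simpa using hYd i t ht, ?_⟩
  intro t ht i j
  have hder : ∀ r ∈ Icc s s', HasDerivWithinAt (fun r => G (w r) (Y i r) (Y j r)) 0
      (Icc s s') r := by
    intro r hr
    have h1 : HasDerivWithinAt (fun r => G (w r)) (fderiv ℝ G (w r) (w' r)) (Icc s s') r :=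
      ((h.differentiableAt (hU r hr)).hasFDerivAt).comp_hasDerivWithinAt r
        (hw r hr).hasDerivWithinAt
    have h2 := (h1.clm_apply (hYd i r hr)).clm_apply (hYd j r hr)
    have h3 := h.fderiv_eq (hU r hr) (w' r) (Y i r) (Y j r)
    have h4 : ((((fderiv ℝ G (w r)) (w' r)) (Y i r) +
        (G (w r)) ((-(chris G (w r)) (w' r)) (Y i r))) (Y j r) +
        ((G (w r)) (Y i r)) ((-(chris G (w r)) (w' r)) (Y j r))) = 0 := by
      simp only [_root_.add_apply, _root_.neg_apply, map_neg]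
      rw [h3]
      ring
    rw [h4] at h2
    exact h2
  have hconst := constant_of_derivWithin_zero (fun r hr => (hder r hr).differentiableWithinAt)
    (fun r hr => (hder r ⟨hr.1, hr.2.le⟩).derivWithin
      (uniqueDiffOn_Icc hss r ⟨hr.1, hr.2.le⟩)) t ht
  have h4 : G (w t) (Y i t) (Y j t) = G (w s) (Y i s) (Y j s) := hconst
  rw [h4, hYs, hYs]
  exact hb i j

end Alg

end Vale.Agent.P210.H204
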